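import Vale.Agent.P097.H320.Fill
import Vale.Agent.P097.H531.CD.Defs
import Vale.Agent.P097.H407.Hol

/-! # P097 / case [d], Row F (fill), literal form -/

set_option linter.all false

open scoped ComplexConjugate Topology
open Filter Metric Set Complex

namespace Vale.Agent.P097.H320.RF

open Vale.Agent.P097 Vale.Agent.P097.TA Vale.Agent.P097.H543 Vale.Agent.P097.CD
open Vale.Agent.P097.H320.Fill

theorem num : (446 / 100 : ℝ) ≤ (500 / 19 : ℝ) ^ (1 / 2 - (76 / 1000) ^ 2 : ℝ) := by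
  have hB : (0 : ℝ) < 500 / 19 := by norm_num
  have h1 : 13 * Real.log (446 / 100) ≤ 6 * Real.log (500 / 19) := by
    have e1 : 13 * Real.log (446 / 100) = Real.log ((446 / 100 : ℝ) ^ 13) := by
      rw [Real.log_pow]
      norm_num
    have e2 : 6 * Real.log (500 / 19) = Real.log ((500 / 19 : ℝ) ^ 6) := by
      rw [Real.log_pow]
      norm_num
    rw [e1, e2]
    apply Real.log_le_log (by positivity)
    norm_num
  have h2 : 0 ≤ Real.log (500 / 19) := Real.log_nonneg (by norm_num)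
  rw [Real.rpow_def_of_pos hB]
  have h3 : (446 / 100 : ℝ) = Real.exp (Real.log (446 / 100)) := (Real.exp_log (by norm_num)).symm
  rw [h3]
  apply Real.exp_le_exp.2
  have h4 : (6 / 13 : ℝ) ≤ 1 / 2 - (76 / 1000) ^ 2 := by norm_num
  nlinarith [mul_le_mul_of_nonneg_left h4 h2]

theorem re_le (z : ℂ) : |z.re| ≤ ‖z‖ := abs_re_le_norm z

theorem rowF : CD.RowF := by
  intro c D r v hD hr hv f f' hf hf' hff u hu0 hu6
  set tc : ℂ := c - ((27 / 5 * D : ℝ) : ℂ) * I with htc
  have htr : ∀ t : ℂ, (t - c).re = (t - tc).re := by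
    intro t
    rw [htc]
    simp
  have hti : ∀ t : ℂ, (t - c).im = (t - tc).im - 27 / 5 * D := by
    intro t
    rw [htc]
    simp
    ring
  set Ω1 : Set (ℂ × ℂ) := {p | ‖p.1 - tc‖ < 19 / 10 * D ∧ ‖p.2‖ < 10 * r} with hΩ1
  set Ω2 : Set (ℂ × ℂ) := {p | ‖p.1 - tc‖ < 50 * D ∧ ‖p.2‖ < 10 * r ∧ ‖p.2‖ / 40 < |p.2.im|}
    with hΩ2
  have ho1 : IsOpen Ω1 := by
    have h1 : Continuous fun p : ℂ × ℂ => ‖p.1 - tc‖ := by fun_prop
    have h2 : Continuous fun p : ℂ × ℂ => ‖p.2‖ := by fun_prop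
    exact (isOpen_lt h1 continuous_const).inter (isOpen_lt h2 continuous_const)
  have ho2 : IsOpen Ω2 := by
    have h1 : Continuous fun p : ℂ × ℂ => ‖p.1 - tc‖ := by fun_prop
    have h2 : Continuous fun p : ℂ × ℂ => ‖p.2‖ := by fun_prop
    have h3 : Continuous fun p : ℂ × ℂ => ‖p.2‖ / 40 := by fun_prop
    have h4 : Continuous fun p : ℂ × ℂ => |p.2.im| :=
      continuous_abs.comp (continuous_im.comp continuous_snd)
    exact (isOpen_lt h1 continuous_const).inter
      ((isOpen_lt h2 continuous_const).inter (isOpen_lt h3 h4))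
  have hs1 : Ω1 ⊆ LoT c D r v := by
    rintro ⟨t, w⟩ ⟨h1, h2⟩
    simp only at h1 h2
    have hre := abs_re_le_norm (t - tc)
    have him := abs_le.1 (abs_im_le_norm (t - tc))
    refine ⟨?_, ?_, ?_, h2⟩
    · show |(t - c).re| < 50 * D
      rw [htr]
      linarith
    · show -(v + 2) * D < (t - c).im
      rw [hti]
      nlinarith [him.1]
    · show (t - c).im < -(7 / 2) * D
      rw [hti]
      nlinarith [him.2]
  have hs2 : Ω2 ⊆ UpR c D r v := by
    rintro ⟨t, w⟩ ⟨h1, h2, h3⟩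
    simp only at h1 h2 h3
    have hre := abs_re_le_norm (t - tc)
    have him := abs_le.1 (abs_im_le_norm (t - tc))
    refine ⟨?_, ?_, ?_, h2, h3⟩
    · show |(t - c).re| < 50 * D
      rw [htr]
      linarith
    · show -(v + 2) * D < (t - c).im
      rw [hti]
      nlinarith [him.1]
    · show (t - c).im < 50 * D
      rw [hti]
      nlinarith [him.2]
  have hJ1 : JD (fun t w => f (t, w)) Ω1 := (hf.mono hs1).differentiableOn
  have hJ2 : JD (fun t w => f' (t, w)) Ω2 := (hf'.mono hs2).differentiableOn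
  obtain ⟨F0, hF0, hF1, -⟩ := JD_glue ho1 ho2 hJ1 hJ2 (by
    intro p h1 h2
    exact hff p ⟨hs1 h1, hs2 h2⟩)
  have hΩo : IsOpen (Ω1 ∪ Ω2) := ho1.union ho2
  have hua : |u| = u := abs_of_pos hu0
  obtain ⟨g, N, hNo, hg, hgF, hN⟩ := fill hΩo hF0 (tc := tc) (u := u) (D := 19 / 10 * D)
    (B := 500 / 19) (s := 76 / 1000) hu0.ne' (by positivity) (by norm_num) (by norm_num)
    (by norm_num) (by
      intro w hw t ht
      left
      refine ⟨ht, ?_⟩
      show ‖w‖ < 10 * r
      have h1 := norm_add_le (w - u) (u : ℂ)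
      rw [sub_add_cancel, norm_real, Real.norm_eq_abs, hua] at h1
      rw [hua] at hw
      linarith) (by
      intro w hw hwi t ht
      right
      have h1 := norm_add_le (w - u) (u : ℂ)
      rw [sub_add_cancel, norm_real, Real.norm_eq_abs, hua] at h1
      rw [hua] at hw hwi
      refine ⟨?_, ?_, ?_⟩
      · show ‖t - tc‖ < 50 * D
        linarith
      · show ‖w‖ < 10 * r
        linarith
      · show ‖w‖ / 40 < |w.im|
        linarith) (by
      intro t w s hs0 hs1' hp
      have h1 : ‖tc + s * (t - tc) - tc‖ ≤ ‖t - tc‖ := by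
        rw [add_sub_cancel_left, norm_mul, norm_real, Real.norm_eq_abs, abs_of_nonneg hs0]
        nlinarith [norm_nonneg (t - tc)]
      rcases hp with hp | hp
      · left
        exact ⟨h1.trans_lt hp.1, hp.2⟩
      · right
        exact ⟨h1.trans_lt hp.1, hp.2⟩)
  -- the column
  set K : Set ℂ := {t | |(t - c).re| ≤ D ∧ -7 * D ≤ (t - c).im ∧ (t - c).im ≤ 3 * D} with hK
  have hKc : IsCompact K := by
    have hcl : IsClosed K := by
      have h1 : Continuous fun t : ℂ => |(t - c).re| :=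
        continuous_abs.comp (continuous_re.comp (by fun_prop))
      have h2 : Continuous fun t : ℂ => (t - c).im := continuous_im.comp (by fun_prop)
      exact (isClosed_le h1 continuous_const).inter
        ((isClosed_le continuous_const h2).inter (isClosed_le h2 continuous_const))
    refine isCompact_of_isClosed_isBounded hcl (isBounded_ball.subset (t := ball tc (9 * D)) ?_)
    intro t ht
    rw [mem_ball, dist_eq_norm]
    have h1 := norm_le_abs_re_add_abs_im (t - tc)
    have h2 : |(t - tc).re| ≤ D := by rw [← htr]; exact ht.1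
    have h3 : |(t - tc).im| ≤ 42 / 5 * D := by
      have := hti t
      rw [abs_le]
      constructor
      · linarith [ht.2.1]
      · linarith [ht.2.2]
    have h4 : ‖t - tc‖ ^ 2 ≤ D ^ 2 + (42 / 5 * D) ^ 2 := by
      rw [Complex.sq_norm, normSq_apply, ← sq, ← sq]
      have h5 : (t - tc).re ^ 2 ≤ D ^ 2 := by
        rw [← sq_abs (t - tc).re]
        exact pow_le_pow_left₀ (abs_nonneg _) h2 2
      have h6 : (t - tc).im ^ 2 ≤ (42 / 5 * D) ^ 2 := by
        rw [← sq_abs (t - tc).im]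
        exact pow_le_pow_left₀ (abs_nonneg _) h3 2
      linarith
    nlinarith [norm_nonneg (t - tc), sq_nonneg D]
  have hKN : K ×ˢ {(u : ℂ)} ⊆ N := by
    rintro ⟨t, w⟩ ⟨ht, hw⟩
    obtain rfl : w = u := hw
    refine hN t (lt_of_lt_of_le (b := 446 / 100 * (19 / 10 * D)) ?_
      (mul_le_mul_of_nonneg_right num (by positivity)))
    have h2 : |(t - tc).re| ≤ D := by rw [← htr]; exact ht.1
    have h3 : |(t - tc).im| ≤ 42 / 5 * D := by
      have := hti t
      rw [abs_le]
      constructor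
      · linarith [ht.2.1]
      · linarith [ht.2.2]
    have h4 : ‖t - tc‖ ^ 2 ≤ D ^ 2 + (42 / 5 * D) ^ 2 := by
      rw [Complex.sq_norm, normSq_apply, ← sq, ← sq]
      have h5 : (t - tc).re ^ 2 ≤ D ^ 2 := by
        rw [← sq_abs (t - tc).re]
        exact pow_le_pow_left₀ (abs_nonneg _) h2 2
      have h6 : (t - tc).im ^ 2 ≤ (42 / 5 * D) ^ 2 := by
        rw [← sq_abs (t - tc).im]
        exact pow_le_pow_left₀ (abs_nonneg _) h3 2
      linarith
    have h7 : 0 < D ^ 2 := by positivity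
    nlinarith [norm_nonneg (t - tc)]
  obtain ⟨U, V, hU, hV, hKU, huV, hUV⟩ := generalized_tube_lemma hKc isCompact_singleton hNo hKN
  obtain ⟨ε₀, hε₀, hεV⟩ := Metric.isOpen_iff.1 hV (u : ℂ) (huV rfl)
  set ε : ℝ := min ε₀ r with hε
  have hε0 : 0 < ε := lt_min hε₀ hr
  have hRN : {t : ℂ | |(t - c).re| < D ∧ -7 * D < (t - c).im ∧ (t - c).im < 3 * D} ×ˢ
      ball (u : ℂ) ε ⊆ N := by
    rintro ⟨t, w⟩ ⟨ht, hw⟩
    exact hUV ⟨hKU ⟨ht.1.le, ht.2.1.le, ht.2.2.le⟩, hεV (ball_subset_ball (min_le_left _ _) hw)⟩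
  have hGan : AnalyticOnNhd ℂ (fun p : ℂ × ℂ => g p.1 p.2) (Ω1 ∪ Ω2 ∪ N) :=
    Hol.analyticOnNhd_of_differentiableOn (hΩo.union hNo) hg
  refine ⟨ε, hε0, fun p => g p.1 p.2, hGan.mono (hRN.trans subset_union_right), ?_⟩
  -- agreement in the lower part of the column
  set S : Set (ℂ × ℂ) := {t : ℂ | |(t - c).re| < D ∧ -7 * D < (t - c).im ∧
    (t - c).im < -(7 / 2) * D} ×ˢ ball (u : ℂ) ε with hS
  have hSsub : S ⊆ LoT c D r v := by
    rintro ⟨t, w⟩ ⟨⟨h1, h2, h3⟩, hw⟩
    simp only at h1 h2 h3 hw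
    refine ⟨?_, ?_, h3, ?_⟩
    · show |(t - c).re| < 50 * D
      linarith
    · show -(v + 2) * D < (t - c).im
      nlinarith
    · show ‖w‖ < 10 * r
      rw [mem_ball, dist_eq_norm] at hw
      have h4 := norm_add_le (w - u) (u : ℂ)
      rw [sub_add_cancel, norm_real, Real.norm_eq_abs, hua] at h4
      have := min_le_right ε₀ r
      linarith
  have hSN : S ⊆ Ω1 ∪ Ω2 ∪ N := by
    rintro ⟨t, w⟩ ⟨⟨h1, h2, h3⟩, hw⟩
    right
    exact hRN ⟨⟨h1, h2, lt_trans h3 (by linarith)⟩, hw⟩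
  have hSc : IsPreconnected S := by
    refine IsPreconnected.prod ?_ (convex_ball _ _).isPreconnected
    have hconv : Convex ℝ {t : ℂ | |(t - c).re| < D ∧ -7 * D < (t - c).im ∧
        (t - c).im < -(7 / 2) * D} := by
      have e : {t : ℂ | |(t - c).re| < D ∧ -7 * D < (t - c).im ∧ (t - c).im < -(7 / 2) * D} =
          {t : ℂ | t.re < c.re + D} ∩ {t : ℂ | c.re - D < t.re} ∩
          ({t : ℂ | c.im + -7 * D < t.im} ∩ {t : ℂ | t.im < c.im + -(7 / 2) * D}) := by
        ext t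
        simp only [mem_setOf_eq, mem_inter_iff, sub_re, sub_im, abs_lt]
        constructor
        · rintro ⟨⟨h1, h2⟩, h3, h4⟩
          exact ⟨⟨by linarith, by linarith⟩, by linarith, by linarith⟩
        · rintro ⟨⟨h1, h2⟩, h3, h4⟩
          exact ⟨⟨by linarith, by linarith⟩, by linarith, by linarith⟩
      rw [e]
      exact ((convex_halfSpace_re_lt _).inter (convex_halfSpace_re_gt _)).inter
        ((convex_halfSpace_im_gt _).inter (convex_halfSpace_im_lt _))
    exact hconv.isPreconnected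
  have hp0 : (tc, (u : ℂ)) ∈ S := by
    refine ⟨⟨?_, ?_, ?_⟩, mem_ball_self hε0⟩
    · rw [htr, sub_self, zero_re, abs_zero]
      exact hD
    · rw [hti, sub_self, zero_im]
      linarith
    · rw [hti, sub_self, zero_im]
      linarith
  have hp1 : (tc, (u : ℂ)) ∈ Ω1 := by
    refine ⟨?_, ?_⟩
    · show ‖tc - tc‖ < 19 / 10 * D
      rw [sub_self, norm_zero]
      positivity
    · show ‖(u : ℂ)‖ < 10 * r
      rw [norm_real, Real.norm_eq_abs, hua]
      linarith
  have hev : (fun p : ℂ × ℂ => g p.1 p.2) =ᶠ[𝓝 (tc, (u : ℂ))] f := by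
    filter_upwards [ho1.mem_nhds hp1] with p hp
    have h1 := hgF p (Or.inl hp)
    have h2 := hF1 p hp
    rw [h1, h2]
  have hEq := (hGan.mono hSN).eqOn_of_preconnected_of_eventuallyEq (hf.mono hSsub) hSc hp0 hev
  intro t w h1 h2 h3 hw
  exact hEq ⟨⟨h1, h2, h3⟩, hw⟩

end Vale.Agent.P097.H320.RF
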