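import Vale.Agent.P097.H320.TC

/-! # P097 / case [d], Row TC: assembly -/

set_option linter.all false

open scoped ComplexConjugate Topology
open Filter Metric Set Complex

namespace Vale.Agent.P097.H320.TCs

open Vale.Agent.P097 Vale.Agent.P097.H490 Vale.Agent.P097.H320.Half

/-- the part of the series holomorphic above -/
noncomputable def Sp (f : ℂ × ℂ → ℂ) (u : ℂ × ℂ) : ℂ :=
  ∑' n : ℕ, cf f (n : ℤ) u.2 * Complex.exp (2 * Real.pi * Complex.I * n * u.1)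

/-- the part of the series holomorphic below -/
noncomputable def Sm (f : ℂ × ℂ → ℂ) (u : ℂ × ℂ) : ℂ :=
  ∑' n : ℕ, cf f (-((n + 1 : ℕ) : ℤ)) u.2 *
    Complex.exp (-(2 * Real.pi * Complex.I * ((n + 1 : ℕ) : ℂ) * u.1))

theorem Sp_diff {f : ℂ × ℂ → ℂ} {a b₀ R R' : ℝ} (ha : 0 < a) (hb₀ : 0 < b₀) (hRR : R < R')
    (hf : DifferentiableOn ℂ f (Str (-a) b₀ ×ˢ ball (0 : ℂ) R'))
    (hper : ∀ t ∈ Str (-a) b₀, ∀ w ∈ ball (0 : ℂ) R', f (t + 1, w) = f (t, w)) {α : ℝ}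
    (hα : α < a) (hα0 : 0 < α) :
    DifferentiableOn ℂ (Sp f) ({t : ℂ | -α < t.im} ×ˢ ball (0 : ℂ) R) := by
  have hπ := Real.pi_pos
  set α' : ℝ := (α + a) / 2 with hα'
  obtain ⟨M, hM0, hM⟩ := cf_bound (f := f) (a := -a) (b := b₀) (W := ball (0 : ℂ) R')
    (K := closedBall (0 : ℂ) R) (by linarith) hb₀ hf hper (isCompact_closedBall _ _)
    (closedBall_subset_ball hRR) (y := -α') (by rw [hα']; linarith) (by rw [hα']; linarith)
  have hU : IsOpen ({t : ℂ | -α < t.im} ×ˢ ball (0 : ℂ) R) :=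
    (isOpen_lt continuous_const continuous_im).prod isOpen_ball
  refine H531.differentiableOn_tsum (u := fun n : ℕ => M * Real.exp (-(2 * Real.pi * (α' - α))) ^ n)
    (summable_geo (by rw [hα']; linarith)) hU (fun n => ?_) fun n p hp => ?_
  · have h1 : DifferentiableOn ℂ (fun p : ℂ × ℂ => cf f (n : ℤ) p.2)
        ({t : ℂ | -α < t.im} ×ˢ ball (0 : ℂ) R) :=
      (cf_diff (a := -a) (b := b₀) (by linarith) hb₀ isOpen_ball hf (n : ℤ)).comp
        (f := fun p : ℂ × ℂ => p.2) differentiable_snd.differentiableOn fun p hp =>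
          ball_subset_ball hRR.le hp.2
    exact h1.mul (by fun_prop)
  · have h1 := norm_exp_str (-(n : ℤ)) p.1
    have h2 : (-(2 * Real.pi * Complex.I * ((-(n : ℤ) : ℤ) : ℂ) * p.1)) =
        2 * Real.pi * Complex.I * n * p.1 := by push_cast; ring
    rw [h2] at h1
    rw [norm_mul, h1]
    have h3 := hM p.2 (ball_subset_closedBall hp.2) (n : ℤ)
    have h4 : -α < p.1.im := hp.1
    have hn : (0 : ℝ) ≤ n := Nat.cast_nonneg n
    calc ‖cf f (n : ℤ) p.2‖ * Real.exp (2 * Real.pi * ((-(n : ℤ) : ℤ) : ℝ) * p.1.im)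
        ≤ (M * Real.exp (2 * Real.pi * ((n : ℤ) : ℝ) * -α')) *
          Real.exp (2 * Real.pi * ((-(n : ℤ) : ℤ) : ℝ) * p.1.im) :=
          mul_le_mul_of_nonneg_right h3 (Real.exp_pos _).le
      _ = M * Real.exp (-(n * (2 * Real.pi * (α' + p.1.im)))) := by
          rw [mul_assoc, ← Real.exp_add]
          congr 2
          push_cast
          ring
      _ ≤ M * Real.exp (-(n * (2 * Real.pi * (α' - α)))) := by
          have h5 : n * (2 * Real.pi * (α' - α)) ≤ n * (2 * Real.pi * (α' + p.1.im)) := by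
            gcongr
            linarith
          gcongr
      _ = M * Real.exp (-(2 * Real.pi * (α' - α))) ^ n := by
          rw [← Real.exp_nat_mul]
          congr 2
          ring

theorem Sm_diff {f : ℂ × ℂ → ℂ} {a b₀ b₂ y₂ R R' M : ℝ} (ha : 0 < a) (hb₀ : 0 < b₀)
    (hR : 0 < R) (hRR : R < R')
    (hf : DifferentiableOn ℂ f (Str (-a) b₀ ×ˢ ball (0 : ℂ) R')) (hy : b₂ < y₂) (hM0 : 0 ≤ M)
    (hM : ∀ w : ℂ, ‖w‖ ≤ R / 3 → ∀ n : ℕ,
      ‖cf f (-(n : ℤ)) w‖ ≤ M * Real.exp (-(n * (2 * Real.pi * y₂)))) :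
    DifferentiableOn ℂ (Sm f) ({t : ℂ | t.im < b₂} ×ˢ ball (0 : ℂ) (R / 3)) := by
  have hπ := Real.pi_pos
  have hU : IsOpen ({t : ℂ | t.im < b₂} ×ˢ ball (0 : ℂ) (R / 3)) :=
    (isOpen_lt continuous_im continuous_const).prod isOpen_ball
  refine H531.differentiableOn_tsum
    (u := fun n : ℕ => M * Real.exp (-(2 * Real.pi * (y₂ - b₂))) ^ (n + 1))
    ((summable_nat_add_iff 1).2 (summable_geo (M := M) (y := y₂ - b₂) (by linarith))) hU
    (fun n => ?_) fun n p hp => ?_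
  · have h1 : DifferentiableOn ℂ (fun p : ℂ × ℂ => cf f (-((n + 1 : ℕ) : ℤ)) p.2)
        ({t : ℂ | t.im < b₂} ×ˢ ball (0 : ℂ) (R / 3)) :=
      (cf_diff (a := -a) (b := b₀) (by linarith) hb₀ isOpen_ball hf (-((n + 1 : ℕ) : ℤ))).comp
        (f := fun p : ℂ × ℂ => p.2) differentiable_snd.differentiableOn fun p hp =>
          ball_subset_ball (by linarith) hp.2
    exact h1.mul (by fun_prop)
  · have h1 := norm_exp_str ((n + 1 : ℕ) : ℤ) p.1
    have h2 : (-(2 * Real.pi * Complex.I * (((n + 1 : ℕ) : ℤ) : ℂ) * p.1)) =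
        -(2 * Real.pi * Complex.I * ((n + 1 : ℕ) : ℂ) * p.1) := by push_cast; ring
    rw [h2] at h1
    rw [norm_mul, h1]
    have h3 := hM p.2 (mem_ball_zero_iff.1 hp.2).le (n + 1)
    have h4 : p.1.im < b₂ := hp.1
    have hn : (0 : ℝ) ≤ ((n + 1 : ℕ) : ℝ) := Nat.cast_nonneg _
    calc ‖cf f (-((n + 1 : ℕ) : ℤ)) p.2‖ * Real.exp (2 * Real.pi * (((n + 1 : ℕ) : ℤ) : ℝ) * p.1.im)
        ≤ (M * Real.exp (-(((n + 1 : ℕ) : ℝ) * (2 * Real.pi * y₂)))) *
          Real.exp (2 * Real.pi * (((n + 1 : ℕ) : ℤ) : ℝ) * p.1.im) :=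
          mul_le_mul_of_nonneg_right h3 (Real.exp_pos _).le
      _ = M * Real.exp (-(((n + 1 : ℕ) : ℝ) * (2 * Real.pi * (y₂ - p.1.im)))) := by
          rw [mul_assoc, ← Real.exp_add]
          congr 2
          push_cast
          ring
      _ ≤ M * Real.exp (-(((n + 1 : ℕ) : ℝ) * (2 * Real.pi * (y₂ - b₂)))) := by
          have h5 : ((n + 1 : ℕ) : ℝ) * (2 * Real.pi * (y₂ - b₂)) ≤
              ((n + 1 : ℕ) : ℝ) * (2 * Real.pi * (y₂ - p.1.im)) := by
            gcongr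
          gcongr
      _ = M * Real.exp (-(2 * Real.pi * (y₂ - b₂))) ^ (n + 1) := by
          rw [← Real.exp_nat_mul]
          congr 2
          ring

theorem split {f : ℂ × ℂ → ℂ} {a b₀ R' : ℝ} (ha : 0 < a) (hb₀ : 0 < b₀)
    (hf : DifferentiableOn ℂ f (Str (-a) b₀ ×ˢ ball (0 : ℂ) R'))
    (hper : ∀ t ∈ Str (-a) b₀, ∀ w ∈ ball (0 : ℂ) R', f (t + 1, w) = f (t, w)) {t w : ℂ}
    (ht : t ∈ Str (-a) b₀) (hw : w ∈ ball (0 : ℂ) R') : f (t, w) = Sp f (t, w) + Sm f (t, w) := by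
  set a' : ℝ := (-a + min t.im 0) / 2 with ha'
  set b' : ℝ := (b₀ + max t.im 0) / 2 with hb'
  have h1 : -a < min t.im 0 := lt_min ht.1 (by linarith)
  have h2 : max t.im 0 < b₀ := max_lt ht.2 hb₀
  have h3 : -a < a' := by rw [ha']; linarith
  have h4 : a' < min t.im 0 := by rw [ha']; linarith
  have h5 : b' < b₀ := by rw [hb']; linarith
  have h6 : max t.im 0 < b' := by rw [hb']; linarith
  obtain ⟨M, hM⟩ := bdd_per hf.continuousOn hper (isCompact_singleton (x := w))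
    (singleton_subset_iff.2 hw) h3 h5
  have hsub : Str a' b' ⊆ Str (-a) b₀ := fun s hs => ⟨by linarith [hs.1], by linarith [hs.2]⟩
  exact fourier_strip (f := fun s => f (s, w)) (a := a') (b := b') (M := M)
    (lt_of_lt_of_le h4 (min_le_right _ _)) (lt_of_le_of_lt (le_max_right _ _) h6)
    ((slice_diff hf hw).mono hsub) (fun s hs => hper s (hsub hs) w hw)
    (fun s hs => hM s hs.1.le hs.2.le w rfl)
    ⟨lt_of_lt_of_le h4 (min_le_left _ _), lt_of_le_of_lt (le_max_left _ _) h6⟩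

theorem rowTC : CD.RowTC := by
  intro a b₀ b₁ b₂ R R' f ha hb₀ hb hR hRR hb2 hf hper hG
  have hfS : AnalyticOnNhd ℂ f (Str (-a) b₀ ×ˢ ball (0 : ℂ) R') := hf
  have hperS : ∀ t ∈ Str (-a) b₀, ∀ w ∈ ball (0 : ℂ) R', f (t + 1, w) = f (t, w) :=
    fun t ht w hw => hper t w ht.1 ht.2 (mem_ball_zero_iff.1 hw)
  obtain ⟨y₂, M, hy, hM0, hM⟩ := third_bound ha hb₀ hb hR hRR hb2 hfS hper hG
  have hm := Sm_diff ha hb₀ hR hRR hfS.differentiableOn hy hM0 hM
  have hopen : IsOpen ({t : ℂ | -a < t.im ∧ t.im < b₂} ×ˢ ball (0 : ℂ) (R / 3)) :=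
    (isOpen_str (-a) b₂).prod isOpen_ball
  have hd : DifferentiableOn ℂ (fun u => Sp f u + Sm f u)
      ({t : ℂ | -a < t.im ∧ t.im < b₂} ×ˢ ball (0 : ℂ) (R / 3)) := by
    rintro ⟨t, w⟩ ⟨ht, hw⟩
    apply DifferentiableAt.differentiableWithinAt
    have ht1 : -a < t.im := ht.1
    have ht2 : t.im < b₂ := ht.2
    have hw' : w ∈ ball (0 : ℂ) R := ball_subset_ball (by linarith) hw
    obtain ⟨α, h1, h2⟩ := exists_between (show max (-t.im) 0 < a from max_lt (by linarith) ha)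
    have h3 := Sp_diff ha hb₀ hRR hfS.differentiableOn hperS h2
      (lt_of_le_of_lt (le_max_right _ _) h1)
    have h4 : -t.im < α := lt_of_le_of_lt (le_max_left _ _) h1
    have h5 : DifferentiableAt ℂ (Sp f) (t, w) :=
      h3.differentiableAt (((isOpen_lt continuous_const continuous_im).prod isOpen_ball).mem_nhds
        ⟨by show -α < t.im; linarith, hw'⟩)
    have h6 : DifferentiableAt ℂ (Sm f) (t, w) :=
      hm.differentiableAt (((isOpen_lt continuous_im continuous_const).prod isOpen_ball).mem_nhds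
        ⟨ht2, hw⟩)
    exact h5.add h6
  refine ⟨fun u => Sp f u + Sm f u, Hol.analyticOnNhd_of_differentiableOn hopen hd, ?_⟩
  intro t w h1 h2 h3
  have hw : w ∈ ball (0 : ℂ) R' := mem_ball_zero_iff.2 (by linarith)
  exact (split ha hb₀ hfS.differentiableOn hperS ⟨h1, lt_of_lt_of_le h2 (min_le_left _ _)⟩ hw).symm

end Vale.Agent.P097.H320.TCs
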