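import Vale.Agent.P097.H365.F5.Defs
import Vale.Agent.P097.H456.Fct.Defs
import Vale.Agent.P097.H367.FR.Ode

/-! # P097 / (B1): an algebraic differential relation gives a polynomial autonomous state -/

set_option linter.all false

open Metric Filter Topology Set MvPolynomial

namespace Vale.Agent.P097.H320

open Vale.Agent.P097.H365.F5 Vale.Agent.P097.H456.Fct

/-- `e^{iz}, M, M', M'', …` -/
noncomputable def YY (M : ℂ → ℂ) : ℕ → ℂ → ℂ
  | 0 => fun z => Complex.exp (Complex.I * z)
  | (i + 1) => iteratedDeriv i M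

theorem eval_Rel {m : ℕ} {P : MvPolynomial (Fin (m + 2)) ℂ} {G : ℂ → ℂ} {z : ℂ} :
    H456.Fct.Rel m P G z ↔ eval (fun i : Fin (m + 2) => YY G i z) P = 0 := by
  have : (Fin.cons (Complex.exp (Complex.I * z)) fun i : Fin (m + 1) => iteratedDeriv i G z :
      Fin (m + 2) → ℂ) = fun i : Fin (m + 2) => YY G i z := by
    funext i
    refine Fin.cases ?_ (fun j => ?_) i
    · rfl
    · rw [Fin.cons_succ, Fin.val_succ]
      rfl
  show eval _ P = 0 ↔ _
  rw [this]

theorem YY_zero (M : ℂ → ℂ) (z : ℂ) : HasDerivAt (YY M 0) (Complex.I * YY M 0 z) z := by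
  have h1 : HasDerivAt (fun z : ℂ => Complex.I * z) Complex.I z := by
    simpa using (hasDerivAt_id z).const_mul Complex.I
  have h2 := h1.cexp
  rw [mul_comm] at h2
  exact h2

theorem YY_an {Om : Set ℂ} {M : ℂ → ℂ} (hM : AnalyticOnNhd ℂ M Om) (i : ℕ) :
    AnalyticOnNhd ℂ (YY M i) Om := by
  rcases i with _ | i
  · intro z _
    have : Differentiable ℂ (YY M 0) := fun w => (YY_zero M w).differentiableAt
    exact this.analyticAt z
  · show AnalyticOnNhd ℂ (iteratedDeriv i M) Om
    rw [iteratedDeriv_eq_iterate]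
    exact hM.iterated_deriv i

theorem YY_succ {Om : Set ℂ} {M : ℂ → ℂ} (hM : AnalyticOnNhd ℂ M Om) {z : ℂ} (hz : z ∈ Om)
    (i : ℕ) : HasDerivAt (YY M (i + 1)) (YY M (i + 2) z) z := by
  have h1 := (YY_an hM (i + 1) z hz).differentiableAt.hasDerivAt
  have h2 : YY M (i + 2) z = deriv (YY M (i + 1)) z := by
    show iteratedDeriv (i + 1) M z = deriv (iteratedDeriv i M) z
    rw [iteratedDeriv_succ]
  rw [h2]
  exact h1

/-- chain rule for polynomial expressions -/
theorem hasDerivAt_eval {σ : Type*} [Fintype σ] {y : ℂ → σ → ℂ} {y' : σ → ℂ} {z : ℂ}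
    (h : ∀ i, HasDerivAt (fun t => y t i) (y' i) z) (Q : MvPolynomial σ ℂ) :
    HasDerivAt (fun t => eval (y t) Q) (∑ i, eval (y z) (pderiv i Q) * y' i) z := by
  classical
  induction Q using MvPolynomial.induction_on with
  | C a =>
    simp only [eval_C, pderiv_C, map_zero, zero_mul, Finset.sum_const_zero]
    exact hasDerivAt_const z a
  | add p q hp hq =>
    have h1 := hp.add hq
    refine (h1.congr_deriv ?_).congr_of_eventuallyEq (Eventually.of_forall fun t => ?_)
    · rw [← Finset.sum_add_distrib]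
      refine Finset.sum_congr rfl fun i _ => ?_
      rw [map_add, map_add]
      ring
    · simp
  | mul_X p n hp =>
    have h1 := hp.mul (h n)
    refine (h1.congr_deriv ?_).congr_of_eventuallyEq (Eventually.of_forall fun t => ?_)
    · have h2 : ∀ i, eval (y z) (pderiv i (p * X n)) * y' i =
          (eval (y z) (pderiv i p) * y' i) * y z n +
            eval (y z) p * (if i = n then y' n else 0) := by
        intro i
        rw [pderiv_mul, pderiv_X, map_add, map_mul, map_mul, eval_X]
        by_cases hi : i = n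
        · subst hi
          simp
          ring
        · rw [if_neg hi, Pi.single_eq_of_ne (fun h => hi h.symm)]
          simp
          ring
      rw [Finset.sum_congr rfl fun i _ => h2 i, Finset.sum_add_distrib, ← Finset.sum_mul,
        ← Finset.mul_sum, Finset.sum_ite_eq' Finset.univ n]
      simp
    · simp

/-- `e^{iz}` is transcendental on an open set -/
theorem exp_indep {Om : Set ℂ} (ho : IsOpen Om) {z₀ : ℂ} (h0 : z₀ ∈ Om)
    {S : MvPolynomial (Fin 1) ℂ}
    (h : ∀ z ∈ Om, eval (fun _ => Complex.exp (Complex.I * z)) S = 0) : S = 0 := by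
  by_contra hne
  set Q : Polynomial ℂ := aeval (fun _ : Fin 1 => (Polynomial.X : Polynomial ℂ)) S with hQ
  have hev : ∀ x : ℂ, Polynomial.eval x Q = eval (fun _ => x) S := by
    intro x
    have h1 : (Polynomial.evalRingHom x).comp (aeval (fun _ : Fin 1 => (Polynomial.X :
        Polynomial ℂ))).toRingHom = eval (fun _ : Fin 1 => x) := by
      apply MvPolynomial.ringHom_ext
      · intro a
        simp
      · intro i
        simp
    exact congrArg (fun f : MvPolynomial (Fin 1) ℂ →+* ℂ => f S) h1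
  have hinj : Q ≠ 0 := by
    intro h1
    apply hne
    have h2 : ∀ x : ℂ, eval (fun _ => x) S = 0 := fun x => by rw [← hev, h1, Polynomial.eval_zero]
    refine MvPolynomial.funext fun v => ?_
    rw [map_zero]
    have h3 : v = fun _ => v 0 := by
      funext i
      rw [Subsingleton.elim i 0]
    rw [h3]
    exact h2 _
  -- infinitely many roots
  have hinf : (Set.range fun n : ℕ => Complex.exp (Complex.I * (z₀ + (1 / (n + 1 : ℝ) : ℝ)))).Infinite := by
    apply Set.infinite_range_of_injective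
    intro a b hab
    have h1 : Complex.exp (Complex.I * (z₀ + ((1 / (a + 1 : ℝ) : ℝ) : ℂ)) -
        Complex.I * (z₀ + ((1 / (b + 1 : ℝ) : ℝ) : ℂ))) = 1 := by
      rw [Complex.exp_sub]
      have h2 : Complex.exp (Complex.I * (z₀ + ((1 / (a + 1 : ℝ) : ℝ) : ℂ))) =
        Complex.exp (Complex.I * (z₀ + ((1 / (b + 1 : ℝ) : ℝ) : ℂ))) := hab
      rw [h2, div_self (Complex.exp_ne_zero _)]
    obtain ⟨n, hn⟩ := Complex.exp_eq_one_iff.1 h1
    have h2 : (((1 / (a + 1 : ℝ) - 1 / (b + 1 : ℝ)) : ℝ) : ℂ) = ((n * (2 * Real.pi) : ℝ) : ℂ) := by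
      have h3 : Complex.I * ((((1 / (a + 1 : ℝ) - 1 / (b + 1 : ℝ)) : ℝ) : ℂ) -
          ((n * (2 * Real.pi) : ℝ) : ℂ)) = 0 := by
        push_cast
        push_cast at hn
        linear_combination hn
      rcases mul_eq_zero.1 h3 with h4 | h4
      · exact absurd h4 Complex.I_ne_zero
      · exact sub_eq_zero.1 h4
    have h3 : 1 / (a + 1 : ℝ) - 1 / (b + 1 : ℝ) = n * (2 * Real.pi) := by exact_mod_cast h2
    have ha : 0 < 1 / (a + 1 : ℝ) ∧ 1 / (a + 1 : ℝ) ≤ 1 := by
      constructor
      · positivity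
      · rw [div_le_one (by positivity)]
        linarith [Nat.cast_nonneg (α := ℝ) a]
    have hb : 0 < 1 / (b + 1 : ℝ) ∧ 1 / (b + 1 : ℝ) ≤ 1 := by
      constructor
      · positivity
      · rw [div_le_one (by positivity)]
        linarith [Nat.cast_nonneg (α := ℝ) b]
    have hn0 : n = 0 := by
      have h4 : |(n : ℝ) * (2 * Real.pi)| < 1 := by
        rw [← h3, abs_lt]
        constructor <;> linarith [ha.1, ha.2, hb.1, hb.2]
      by_contra hne
      have h5 : (1 : ℝ) ≤ |(n : ℝ)| := by exact_mod_cast Int.one_le_abs hne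
      rw [abs_mul, abs_of_pos (by positivity : (0:ℝ) < 2 * Real.pi)] at h4
      nlinarith [Real.pi_gt_three]
    rw [hn0, Int.cast_zero, zero_mul, sub_eq_zero, one_div, one_div, inv_inj] at h3
    have : (a : ℝ) = b := by linarith
    exact_mod_cast this
  obtain ⟨r, hr, hball⟩ := Metric.isOpen_iff.1 ho z₀ h0
  obtain ⟨N, hN⟩ := exists_nat_one_div_lt hr
  have hsub : (Set.range fun n : ℕ => Complex.exp (Complex.I *
      (z₀ + (1 / ((n : ℝ) + 1) : ℝ)))) \ (Set.range fun n : Fin N => Complex.exp (Complex.I *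
      (z₀ + (1 / ((n.1 : ℝ) + 1) : ℝ)))) ⊆ {x | Q.IsRoot x} := by
    rintro _ ⟨⟨n, rfl⟩, hn⟩
    have hnN : N ≤ n := by
      by_contra hlt
      exact hn ⟨⟨n, not_le.1 hlt⟩, rfl⟩
    show Polynomial.eval _ Q = 0
    rw [hev]
    refine h _ (hball ?_)
    rw [mem_ball, dist_eq_norm, add_sub_cancel_left, Complex.norm_real, Real.norm_eq_abs,
      abs_of_pos (by positivity)]
    refine lt_of_le_of_lt ?_ hN
    apply one_div_le_one_div_of_le (by positivity)
    have : (N : ℝ) ≤ n := by exact_mod_cast hnN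
    linarith
  have h1 := (hinf.diff (Set.finite_range _)).mono hsub
  exact h1 (Polynomial.finite_setOf_isRoot hinj)

/-- **(B1)** an algebraic differential relation gives a polynomial autonomous state -/
theorem pstate {Om : Set ℂ} (ho : IsOpen Om) (hn : Om.Nonempty) {M : ℂ → ℂ}
    (hM : AnalyticOnNhd ℂ M Om) {m : ℕ} {P : MvPolynomial (Fin (m + 2)) ℂ} (hP : P ≠ 0)
    (hR : ∀ z ∈ Om, H456.Fct.Rel m P M z) :
    ∃ (k0 : ℕ) (D : ℂ → ℂ), AnalyticOnNhd ℂ D Om ∧ (∃ z ∈ Om, D z ≠ 0) ∧ ∀ k ≥ k0,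
      ∃ (Φ : Fin (k + 2) → MvPolynomial (Fin (k + 2)) ℂ) (z : ℂ → Fin (k + 2) → ℂ),
        PState Φ 0 1 (Om ∩ {ψ | D ψ ≠ 0}) M z := by
  classical
  obtain ⟨z₀, hz₀⟩ := hn
  haveI : Nonempty Om := ⟨⟨z₀, hz₀⟩⟩
  set y : ℕ → (Om → ℂ) := fun i z => YY M i z with hy
  have hev : ∀ (n : ℕ) (Q : MvPolynomial (Fin n) ℂ) (z : Om),
      aeval (fun i : Fin n => y i) Q z = eval (fun i : Fin n => YY M i z) Q := by
    intro n Q z
    have h1 : (Pi.evalRingHom (fun _ : Om => ℂ) z).comp (aeval (R := ℂ)
        (fun i : Fin n => y i)).toRingHom = eval (fun i : Fin n => YY M i z) := by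
      apply MvPolynomial.ringHom_ext
      · intro a
        simp
      · intro i
        simp [hy]
    exact congrArg (fun f : MvPolynomial (Fin n) ℂ →+* ℂ => f Q) h1
  have hbound : ∀ n : ℕ, AlgebraicIndependent ℂ (fun i : Fin n => y i) → n ≤ m + 1 := by
    intro n hind
    by_contra hlt
    push Not at hlt
    have h1 : AlgebraicIndependent ℂ (fun i : Fin (m + 2) => y i) :=
      hind.comp (Fin.castLE (by omega)) (Fin.castLE_injective _)
    refine hP (algebraicIndependent_iff.1 h1 P ?_)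
    funext z
    rw [hev]
    exact eval_Rel.1 (hR z z.2)
  obtain ⟨n, hnm, hind, S, hS, hS'⟩ := H367.FR.exists_ode y hbound
  have hS0 : ∀ z ∈ Om, eval (fun i : Fin (n + 1) => YY M i z) S = 0 := by
    intro z hz
    rw [← hev (n + 1) S ⟨z, hz⟩, hS]
    rfl
  have hn1 : 1 ≤ n := by
    rcases n with _ | n
    · exfalso
      have h1 : S = 0 := by
        refine exp_indep ho hz₀ (fun z hz => ?_)
        have h2 := hS0 z hz
        have h3 : (fun i : Fin (0 + 1) => YY M i z) =
            fun _ => Complex.exp (Complex.I * z) := by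
          funext i
          have hi : (i : ℕ) = 0 := by
            have := i.2
            omega
          rw [hi]
          rfl
        rw [h3] at h2
        exact h2
      rw [h1, map_zero, map_zero] at hS'
      exact hS' rfl
    · omega
  -- the separant
  set σp : MvPolynomial (Fin (n + 1)) ℂ := pderiv (Fin.last n) S with hσp
  set σ : ℂ → ℂ := fun z => eval (fun i : Fin (n + 1) => YY M i z) σp with hσ
  have evan : ∀ Q : MvPolynomial (Fin (n + 1)) ℂ,
      AnalyticOnNhd ℂ (fun z => eval (fun i : Fin (n + 1) => YY M i z) Q) Om := by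
    intro Q
    induction Q using MvPolynomial.induction_on with
    | C a =>
      simp only [eval_C]
      exact analyticOnNhd_const
    | add p q hp hq =>
      have := hp.add hq
      refine this.congr ho fun z _ => ?_
      simp
    | mul_X p i hp =>
      have := hp.mul (YY_an hM i)
      refine this.congr ho fun z _ => ?_
      simp
  have hσne : ∃ z ∈ Om, σ z ≠ 0 := by
    by_contra hcon
    push Not at hcon
    apply hS'
    funext z
    rw [hev]
    exact hcon z z.2
  refine ⟨n, σ, evan σp, hσne, fun k hk => ?_⟩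
  -- derivatives
  set dy : ℕ → ℂ → ℂ := fun i z => if i = 0 then Complex.I * YY M 0 z else YY M (i + 1) z with hdy
  have hYd : ∀ z ∈ Om, ∀ i, HasDerivAt (YY M i) (dy i z) z := by
    intro z hz i
    rcases i with _ | i
    · exact YY_zero M z
    · exact YY_succ hM hz i
  have chain : ∀ (Q : MvPolynomial (Fin (n + 1)) ℂ), ∀ z ∈ Om,
      HasDerivAt (fun t => eval (fun i : Fin (n + 1) => YY M i t) Q)
        (∑ i : Fin (n + 1), eval (fun i : Fin (n + 1) => YY M i z) (pderiv i Q) * dy i z) z := by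
    intro Q z hz
    exact hasDerivAt_eval (y := fun t (i : Fin (n + 1)) => YY M i t) (fun i => hYd z hz i) Q
  have hode : ∀ z ∈ Om, σ z * YY M (n + 1) z = -∑ i : Fin n,
      eval (fun i : Fin (n + 1) => YY M i z) (pderiv i.castSucc S) * dy i z := by
    intro z hz
    have h1 := chain S z hz
    have h2 : HasDerivAt (fun t => eval (fun i : Fin (n + 1) => YY M i t) S) 0 z := by
      refine (hasDerivAt_const z (0 : ℂ)).congr_of_eventuallyEq ?_
      filter_upwards [ho.mem_nhds hz] with t ht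
      exact hS0 t ht
    have h3 := h1.unique h2
    rw [Fin.sum_univ_castSucc] at h3
    have h4 : dy (Fin.last n : Fin (n + 1)) z = YY M (n + 1) z := by
      rw [hdy, Fin.val_last]
      simp only
      rw [if_neg (by omega)]
    rw [h4] at h3
    have h5 : ∀ i : Fin n, dy (i.castSucc : Fin (n + 1)) z = dy i z := fun i => by
      rw [Fin.val_castSucc]
    simp only [h5] at h3
    rw [hσ]
    linear_combination h3
  -- the polynomials
  set K := k + 2 with hK
  set e : Fin (n + 1) → Fin K := Fin.castLE (by omega) with he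
  set s : Fin K := ⟨n + 1, by omega⟩ with hs
  set b : ℕ → MvPolynomial (Fin K) ℂ := fun i =>
    if i = 0 then C Complex.I * X 0 else if h : i + 1 < K then X ⟨i + 1, h⟩ else 0 with hb
  set T : MvPolynomial (Fin K) ℂ := -X s * ∑ i : Fin n, rename e (pderiv i.castSucc S) * b i
    with hT
  set B : ℕ → MvPolynomial (Fin K) ℂ := fun i => if i = n then T else b i with hB
  set W : MvPolynomial (Fin K) ℂ := -X s ^ 2 * ∑ i : Fin (n + 1), rename e (pderiv i σp) * B i
    with hW
  set Φ : Fin K → MvPolynomial (Fin K) ℂ := fun i =>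
    if i.1 ≤ n then B i else if i.1 = n + 1 then W else 0 with hΦ
  set z : ℂ → Fin K → ℂ := fun ψ i =>
    if i.1 ≤ n then YY M i ψ else if i.1 = n + 1 then (σ ψ)⁻¹ else 0 with hz
  have ze : ∀ ψ, (fun i => z ψ (e i)) = fun i : Fin (n + 1) => YY M i ψ := by
    intro ψ
    funext i
    simp only [hz, he, Fin.val_castLE]
    rw [if_pos (by omega)]
  have zs : ∀ ψ, z ψ s = (σ ψ)⁻¹ := by
    intro ψ
    have h1 : (s : ℕ) = n + 1 := rfl
    show (if (s : ℕ) ≤ n then _ else if (s : ℕ) = n + 1 then (σ ψ)⁻¹ else 0) = _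
    rw [if_neg (by omega), if_pos h1]
  have z0 : ∀ ψ, z ψ 0 = YY M 0 ψ := by
    intro ψ
    simp only [hz]
    rw [if_pos (by simp)]
    rfl
  have evr : ∀ (ψ : ℂ) (Q : MvPolynomial (Fin (n + 1)) ℂ), eval (z ψ) (rename e Q) =
      eval (fun i : Fin (n + 1) => YY M i ψ) Q := by
    intro ψ Q
    rw [eval_rename]
    congr 1
    exact congrArg _ (ze ψ)
  have evb : ∀ (ψ : ℂ) (i : ℕ), i < n → eval (z ψ) (b i) = dy i ψ := by
    intro ψ i hi
    simp only [hb, hdy]
    split_ifs with h1 h2
    · rw [map_mul, eval_C, eval_X, z0]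
    · rw [eval_X]
      simp only [hz]
      rw [if_pos (by omega)]
    · omega
  have evT : ∀ ψ ∈ Om, σ ψ ≠ 0 → eval (z ψ) T = YY M (n + 1) ψ := by
    intro ψ hψ hσψ
    rw [hT, map_mul, map_neg, eval_X, zs, map_sum]
    have h1 : ∀ i : Fin n, eval (z ψ) (rename e (pderiv i.castSucc S) * b i) =
        eval (fun i : Fin (n + 1) => YY M i ψ) (pderiv i.castSucc S) * dy i ψ := by
      intro i
      rw [map_mul, evr, evb ψ i i.2]
    rw [Finset.sum_congr rfl fun i _ => h1 i, neg_mul, ← mul_neg, ← hode ψ hψ]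
    field_simp
  have evB : ∀ ψ ∈ Om, σ ψ ≠ 0 → ∀ i : ℕ, i ≤ n → eval (z ψ) (B i) = dy i ψ := by
    intro ψ hψ hσψ i hi
    simp only [hB]
    split_ifs with h1
    · rw [evT ψ hψ hσψ, h1, hdy]
      simp only
      rw [if_neg (by omega)]
    · exact evb ψ i (by omega)
  have hder : ∀ ψ ∈ Om ∩ {ψ | σ ψ ≠ 0}, ∀ i, HasDerivAt (fun t => z t i)
      (eval (z ψ) (Φ i)) ψ := by
    rintro ψ ⟨hψ, hσψ⟩ i
    by_cases h1 : (i : ℕ) ≤ n
    · have h2 : Φ i = B i := if_pos h1
      have h3 : (fun t => z t i) = YY M i := by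
        funext t
        exact if_pos h1
      rw [h2, h3, evB ψ hψ hσψ i h1]
      exact hYd ψ hψ i
    by_cases h2 : (i : ℕ) = n + 1
    · have e2 : Φ i = W := by
        show (if (i : ℕ) ≤ n then _ else if (i : ℕ) = n + 1 then W else 0) = W
        rw [if_neg h1, if_pos h2]
      have e3 : (fun t => z t i) = fun t => (σ t)⁻¹ := by
        funext t
        show (if (i : ℕ) ≤ n then _ else if (i : ℕ) = n + 1 then (σ t)⁻¹ else 0) = _
        rw [if_neg h1, if_pos h2]
      rw [e2, e3]
      have h3 := (chain σp ψ hψ).inv hσψ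
      refine h3.congr_deriv ?_
      rw [hW, map_mul, map_neg, map_pow, eval_X, zs, map_sum]
      have h4 : ∀ i : Fin (n + 1), eval (z ψ) (rename e (pderiv i σp) * B i) =
          eval (fun i : Fin (n + 1) => YY M i ψ) (pderiv i σp) * dy i ψ := by
        intro i
        rw [map_mul, evr, evB ψ hψ hσψ i (by omega)]
      rw [Finset.sum_congr rfl fun i _ => h4 i]
      show _ / (σ ψ) ^ 2 = -(σ ψ)⁻¹ ^ 2 * _
      rw [inv_pow, div_eq_mul_inv]
      ring
    · have e2 : Φ i = 0 := by
        show (if (i : ℕ) ≤ n then _ else if (i : ℕ) = n + 1 then W else 0) = 0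
        rw [if_neg h1, if_neg h2]
      have e3 : (fun t => z t i) = fun t => (0 : ℂ) := by
        funext t
        show (if (i : ℕ) ≤ n then _ else if (i : ℕ) = n + 1 then (σ t)⁻¹ else 0) = _
        rw [if_neg h1, if_neg h2]
      rw [e2, e3, map_zero]
      exact hasDerivAt_const ψ 0
  refine ⟨Φ, z, ⟨?_, ?_, ?_, ?_⟩⟩
  · simp only [hΦ]
    rw [if_pos (by simp)]
    simp only [hB, hb]
    rw [if_neg (by simp; omega), if_pos (by simp)]
  · intro ψ hψ
    exact hasDerivAt_pi.2 (hder ψ hψ)
  · intro ψ _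
    exact z0 ψ
  · intro ψ _
    simp only [hz]
    have h1 : ((1 : Fin K) : ℕ) = 1 := by simp [hK]
    rw [if_pos (by rw [h1]; exact hn1)]
    rw [h1]
    show iteratedDeriv 0 M ψ = M ψ
    rw [iteratedDeriv_zero]

end Vale.Agent.P097.H320
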