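import Vale.Agent.P097.H500.StripExt

/-! # P097 / PERIMETER, [P2]: an analytic periodic function which is exact in the field of
fractions of the ring of periodic real analytic functions has integral zero -/

set_option linter.all false

open Complex Metric Filter Topology Set

namespace Vale.Agent.P097.H320

/-- real and imaginary parts of real analytic functions -/
theorem an_re {a : ℝ → ℂ} {x : ℝ} (h : AnalyticAt ℝ a x) : AnalyticAt ℝ (fun y => (a y).re) x :=
  (Complex.reCLM.analyticAt (a x)).comp h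

theorem an_im {a : ℝ → ℂ} {x : ℝ} (h : AnalyticAt ℝ a x) : AnalyticAt ℝ (fun y => (a y).im) x :=
  (Complex.imCLM.analyticAt (a x)).comp h

/-- local primitive of a real analytic function with real values -/
theorem prim_local {a : ℝ → ℝ} {x : ℝ} (h : AnalyticAt ℝ a x) :
    ∃ A : ℝ → ℂ, AnalyticAt ℝ A x ∧ ∀ᶠ y in 𝓝 x, HasDerivAt A ((a y : ℝ) : ℂ) y := by
  obtain ⟨ρ, G, hρ, hG, hGa⟩ := H500.cx_local h
  obtain ⟨P, hP⟩ := hG.isExactOn_ball
  have hPd : DifferentiableOn ℂ P (ball (x : ℂ) ρ) := fun z hz =>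
    (hP z hz).differentiableAt.differentiableWithinAt
  have hPa : AnalyticAt ℂ P (x : ℂ) :=
    hPd.analyticAt (isOpen_ball.mem_nhds (mem_ball_self hρ))
  refine ⟨fun y => P y, ?_, ?_⟩
  · exact (hPa.restrictScalars (𝕜 := ℝ)).comp (Complex.ofRealCLM.analyticAt x)
  · filter_upwards [Metric.ball_mem_nhds x hρ] with y hy
    have hy' : |y - x| < ρ := by rwa [mem_ball, Real.dist_eq] at hy
    have hyc : (y : ℂ) ∈ ball (x : ℂ) ρ := by
      rw [mem_ball, dist_eq_norm, ← ofReal_sub, norm_real, Real.norm_eq_abs]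
      exact hy'
    have h1 := (hP y hyc).comp_ofReal
    rw [hGa y hy'] at h1
    exact h1

/-- a function with a real analytic derivative is real analytic -/
theorem an_of_deriv {a A : ℝ → ℂ} (ha : ∀ x, AnalyticAt ℝ a x) (hA : ∀ x, HasDerivAt A (a x) x)
    (x : ℝ) : AnalyticAt ℝ A x := by
  obtain ⟨A1, h1, h1'⟩ := prim_local (an_re (ha x))
  obtain ⟨A2, h2, h2'⟩ := prim_local (an_im (ha x))
  set B : ℝ → ℂ := fun y => A1 y + A2 y * I with hB
  have hBa : AnalyticAt ℝ B x := h1.add (h2.mul analyticAt_const)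
  have hd : ∀ᶠ y in 𝓝 x, HasDerivAt (fun y => A y - B y) 0 y := by
    filter_upwards [h1', h2'] with y e1 e2
    have e3 := (hA y).sub (e1.add (e2.mul_const I))
    refine e3.congr_deriv ?_
    rw [Complex.re_add_im, sub_self]
  obtain ⟨r, hr, hball⟩ := Metric.eventually_nhds_iff_ball.1 hd
  have hc : ∀ y ∈ ball x r, A y - B y = A x - B x := by
    intro y hy
    refine (convex_ball x r).is_const_of_fderivWithin_eq_zero (𝕜 := ℝ) (f := fun y => A y - B y)
      (fun z hz => (hball z hz).differentiableAt.differentiableWithinAt) ?_ hy (mem_ball_self hr)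
    intro z hz
    rw [fderivWithin_of_isOpen isOpen_ball hz, (hball z hz).hasFDerivAt.fderiv]
    ext
    simp
  have he : A =ᶠ[𝓝 x] fun y => B y + (A x - B x) := by
    filter_upwards [Metric.ball_mem_nhds x hr] with y hy
    rw [← hc y hy]
    ring
  exact (hBa.add analyticAt_const).congr he.symm

/-- **[P2]**, elementary form -/
theorem int_zero {f g a : ℝ → ℂ} (hf : ∀ x, AnalyticAt ℝ f x) (hg : ∀ x, AnalyticAt ℝ g x)
    (ha : ∀ x, AnalyticAt ℝ a x) (pf : ∀ x, f (x + 1) = f x) (pg : ∀ x, g (x + 1) = g x)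
    {x₀ : ℝ} (hg0 : g x₀ ≠ 0) (pa : ∀ x, a (x + 1) = a x)
    (h : ∀ x, deriv f x * g x - f x * deriv g x = a x * g x ^ 2) :
    ∫ x in (0 : ℝ)..1, a x = 0 := by
  have hac : Continuous a := continuous_iff_continuousAt.2 fun x => (ha x).continuousAt
  set A : ℝ → ℂ := fun x => ∫ t in (0 : ℝ)..x, a t with hA
  have dA : ∀ x, HasDerivAt A (a x) x := fun x =>
    intervalIntegral.integral_hasDerivAt_right (hac.intervalIntegrable _ _)
      (hac.stronglyMeasurableAtFilter _ _) hac.continuousAt
  have aA : ∀ x, AnalyticAt ℝ A x := an_of_deriv ha dA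
  have df : ∀ x, HasDerivAt f (deriv f x) x := fun x => (hf x).differentiableAt.hasDerivAt
  have dg : ∀ x, HasDerivAt g (deriv g x) x := fun x => (hg x).differentiableAt.hasDerivAt
  -- near `x₀`
  obtain ⟨r, hr, hball⟩ := Metric.eventually_nhds_iff_ball.1
    ((hg x₀).continuousAt.eventually_ne hg0)
  set c : ℂ := f x₀ / g x₀ - A x₀ with hc
  have hq : ∀ y ∈ ball x₀ r, HasDerivAt (fun y => f y / g y - A y) 0 y := by
    intro y hy
    have hy0 := hball y hy
    refine (((df y).div (dg y) hy0).sub (dA y)).congr_deriv ?_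
    rw [h y]
    field_simp
    ring
  have hcon : ∀ y ∈ ball x₀ r, f y / g y - A y = c := by
    intro y hy
    refine (convex_ball x₀ r).is_const_of_fderivWithin_eq_zero (𝕜 := ℝ)
      (f := fun y => f y / g y - A y)
      (fun z hz => (hq z hz).differentiableAt.differentiableWithinAt) ?_ hy (mem_ball_self hr)
    intro z hz
    rw [fderivWithin_of_isOpen isOpen_ball hz, (hq z hz).hasFDerivAt.fderiv]
    ext
    simp
  have hloc : f =ᶠ[𝓝 x₀] fun y => (A y + c) * g y := by
    filter_upwards [Metric.ball_mem_nhds x₀ hr] with y hy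
    have h1 := hcon y hy
    have h2 := hball y hy
    rw [← h1]
    field_simp
    ring
  have hall : f = fun y => (A y + c) * g y := by
    have h1 : AnalyticOnNhd ℝ f univ := fun x _ => hf x
    have h2 : AnalyticOnNhd ℝ (fun y => (A y + c) * g y) univ := fun x _ =>
      ((aA x).add analyticAt_const).mul (hg x)
    funext x
    exact h1.eqOn_of_preconnected_of_eventuallyEq h2 isPreconnected_univ (mem_univ x₀) hloc
      (mem_univ x)
  -- periodicity
  have h1 : (A (x₀ + 1) + c) * g x₀ = (A x₀ + c) * g x₀ := by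
    have h2 := pf x₀
    rw [hall] at h2
    simpa [pg x₀] using h2
  have h3 : A (x₀ + 1) = A x₀ := by
    have := mul_right_cancel₀ hg0 h1
    linear_combination this
  have h4 : ∫ t in x₀..(x₀ + 1), a t = 0 := by
    have h5 : A x₀ + ∫ t in x₀..(x₀ + 1), a t = A (x₀ + 1) :=
      intervalIntegral.integral_add_adjacent_intervals (hac.intervalIntegrable _ _)
        (hac.intervalIntegrable _ _)
    linear_combination h5 + h3
  have h6 : Function.Periodic a 1 := pa
  have h7 := h6.intervalIntegral_add_eq x₀ 0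
  rw [zero_add] at h7
  rw [← h7]
  exact h4

end Vale.Agent.P097.H320
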