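import Vale.Agent.P097.H320.PerA
import Vale.Agent.P097.H320.PerB

/-! # P097 / PERIMETER, [P2]: the ring of periodic real analytic functions, its derivation, and
exactness in its field of fractions (or in an algebraic extension) -/

set_option linter.all false

open Complex Metric Filter Topology Set

namespace Vale.Agent.P097.H320

open Vale.Agent.P097.H82

/-- the ring of `1`-periodic real analytic functions with complex values -/
def OP : Subring (ℝ → ℂ) where
  carrier := {f | (∀ x, AnalyticAt ℝ f x) ∧ ∀ x, f (x + 1) = f x}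
  mul_mem' := fun {f g} hf hg => ⟨fun x => (hf.1 x).mul (hg.1 x), fun x => by
    simp only [Pi.mul_apply, hf.2 x, hg.2 x]⟩
  one_mem' := ⟨fun x => analyticAt_const, fun x => rfl⟩
  add_mem' := fun {f g} hf hg => ⟨fun x => (hf.1 x).add (hg.1 x), fun x => by
    simp only [Pi.add_apply, hf.2 x, hg.2 x]⟩
  zero_mem' := ⟨fun x => analyticAt_const, fun x => rfl⟩
  neg_mem' := fun {f} hf => ⟨fun x => (hf.1 x).neg, fun x => by
    simp only [Pi.neg_apply, hf.2 x]⟩

namespace OP

theorem an (f : OP) (x : ℝ) : AnalyticAt ℝ f.1 x := f.2.1 x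

theorem per (f : OP) (x : ℝ) : f.1 (x + 1) = f.1 x := f.2.2 x

theorem dd (f : OP) (x : ℝ) : HasDerivAt f.1 (deriv f.1 x) x := (an f x).differentiableAt.hasDerivAt

theorem ext' {f g : OP} (h : ∀ x, f.1 x = g.1 x) : f = g := Subtype.ext (funext h)

instance : NoZeroDivisors OP := ⟨fun {f g} h => by
  have h' : ∀ z ∈ univ, f.1 z * g.1 z = 0 := fun z _ => congrFun (congrArg Subtype.val h) z
  rcases AnalyticOnNhd.eq_zero_or_eq_zero_of_mul_eq_zero (fun x _ => an f x) (fun x _ => an g x) h'
    isPreconnected_univ with h1 | h1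
  · left
    exact ext' fun z => h1 z trivial
  · right
    exact ext' fun z => h1 z trivial⟩

instance : Nontrivial OP := ⟨0, 1, fun h => by
  have := congrFun (congrArg Subtype.val h) 0
  simp at this⟩

instance : IsDomain OP := NoZeroDivisors.to_isDomain _

/-- the derivation -/
noncomputable def D (f : OP) : OP := ⟨deriv f.1, fun x => (an f x).deriv, fun x => by
  have h1 : (fun y => f.1 (y + 1)) = f.1 := funext (per f)
  have h2 : deriv (fun y => f.1 (y + 1)) x = deriv f.1 (x + 1) := deriv_comp_add_const f.1 1 x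
  rw [← h2, h1]⟩

theorem D_apply (f : OP) (x : ℝ) : (D f).1 x = deriv f.1 x := rfl

theorem D_isDer : IsDer (RingHom.id OP) D where
  add f g := ext' fun x => ((dd f x).add (dd g x)).deriv
  mul f g := ext' fun x => by
    have h1 : (D (f * g)).1 x = _ := ((dd f x).mul (dd g x)).deriv
    rw [h1]
    change _ = f.1 x * deriv g.1 x + g.1 x * deriv f.1 x
    ring

/-- **[P2]** -/
theorem int_zero {M : Type*} [Field M] [Algebra OP M] [IsFractionRing OP M] {d : M → M}
    (hd : IsDer (RingHom.id M) d) (hext : ∀ f : OP, d (algebraMap OP M f) = algebraMap OP M (D f))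
    {a : OP} {G : M} (h : d G = algebraMap OP M a) : ∫ x in (0 : ℝ)..1, a.1 x = 0 := by
  obtain ⟨f, g, hg, rfl⟩ := IsFractionRing.div_surjective (A := OP) G
  have hg0 : g ≠ 0 := nonZeroDivisors.ne_zero hg
  have hgM : algebraMap OP M g ≠ 0 := IsFractionRing.to_map_ne_zero_of_mem_nonZeroDivisors hg
  rw [hd.div _ hgM, hext, hext] at h
  simp only [RingHom.id_apply] at h
  have h1 : algebraMap OP M (D f * g - f * D g) = algebraMap OP M (a * g ^ 2) := by
    rw [div_eq_iff (pow_ne_zero 2 hgM)] at h
    rw [map_sub, map_mul, map_mul, map_mul, map_pow]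
    exact h
  have h2 : D f * g - f * D g = a * g ^ 2 := IsFractionRing.injective OP M h1
  obtain ⟨x₀, hx⟩ : ∃ x, g.1 x ≠ 0 := by
    by_contra hcon
    push Not at hcon
    exact hg0 (ext' hcon)
  exact H320.int_zero (an f) (an g) (an a) (per f) (per g) hx (per a) fun x =>
    congrFun (congrArg Subtype.val h2) x

/-- **[P1] + [P2]**: exactness in an algebraic extension of the field of fractions -/
theorem int_zero_alg {M k : Type*} [Field M] [Algebra OP M] [IsFractionRing OP M] [CharZero M]
    [Field k] [Algebra M k] [Algebra.IsAlgebraic M k] {d : k → k} (hd : IsDer (RingHom.id k) d)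
    {d0 : M → M} (h0 : IsDer (RingHom.id M) d0)
    (hext : ∀ x : M, d (algebraMap M k x) = algebraMap M k (d0 x))
    (hext0 : ∀ f : OP, d0 (algebraMap OP M f) = algebraMap OP M (D f))
    {a : OP} {G : k} (h : d G = algebraMap M k (algebraMap OP M a)) :
    ∫ x in (0 : ℝ)..1, a.1 x = 0 := by
  obtain ⟨G', hG'⟩ := exact_descends hd h0 hext (Algebra.IsIntegral.isIntegral G) h
  exact int_zero h0 hext0 hG'

end OP

end Vale.Agent.P097.H320
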