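import Vale.Agent.P097.H543.Hartogs

/-! # P097 / [d] row D5: the Hartogs figure at a real label -/

set_option linter.all false

open scoped ComplexConjugate Topology
open Filter Metric Set Complex

namespace Vale.Agent.P097.H320.Fill

open Vale.Agent.P097.TA
open Vale.Agent.P097.H543

/-- the multiplier of the figure -/
noncomputable def mu (h0 : ℝ) (ζ : ℂ) : ℂ := exp (h0 * (1 - ζ ^ 2))

theorem mu_ne (h0 : ℝ) (ζ : ℂ) : mu h0 ζ ≠ 0 := exp_ne_zero _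

theorem mu_diff (h0 : ℝ) : Differentiable ℂ (mu h0) := by
  unfold mu; fun_prop

theorem norm_mu (h0 : ℝ) (ζ : ℂ) : ‖mu h0 ζ‖ = Real.exp (h0 * (1 - ζ.re ^ 2 + ζ.im ^ 2)) := by
  have e : ((h0 : ℂ) * (1 - ζ ^ 2)).re = h0 * (1 - ζ.re ^ 2 + ζ.im ^ 2) := by
    rw [re_ofReal_mul, sub_re, one_re, sq ζ, mul_re]
    ring
  rw [mu, norm_exp, e]

/-- the new part of the domain -/
def New (tc u a : ℂ) (h0 ρ : ℝ) : Set (ℂ × ℂ) :=
  {p | (p.2 - u) / a ∈ ball (0 : ℂ) 1 ∧ (p.1 - tc) / mu h0 ((p.2 - u) / a) ∈ ball (0 : ℂ) ρ}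

theorem isOpen_New (tc u a : ℂ) (h0 ρ : ℝ) : IsOpen (New tc u a h0 ρ) := by
  have h1 : Continuous fun p : ℂ × ℂ => (p.2 - u) / a := by fun_prop
  have h2 : Continuous fun p : ℂ × ℂ => (p.1 - tc) / mu h0 ((p.2 - u) / a) :=
    Continuous.div (by fun_prop) ((mu_diff h0).continuous.comp h1) fun p => mu_ne _ _
  exact (isOpen_ball.preimage h1).inter (isOpen_ball.preimage h2)

theorem fill_core {f : ℂ → ℂ → ℂ} {Ω : Set (ℂ × ℂ)} (hΩ : IsOpen Ω) (hf : JD f Ω)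
    {tc u a : ℂ} (ha : a ≠ 0) {h0 ρ ρ0 : ℝ} (hρ0 : 0 < ρ0) (hρ : 0 < ρ)
    (hbd : ∀ ζ : ℂ, ‖ζ‖ = 1 → ∀ Z : ℂ, ‖Z‖ < ρ → (tc + Z * mu h0 ζ, u + a * ζ) ∈ Ω)
    (hin : ∀ ζ : ℂ, ‖ζ‖ ≤ 1 → ∀ Z : ℂ, ‖Z‖ < ρ0 → (tc + Z * mu h0 ζ, u + a * ζ) ∈ Ω)
    (hstar : ∀ t w : ℂ, ∀ s : ℝ, 0 ≤ s → s ≤ 1 → (t, w) ∈ Ω → (tc + s * (t - tc), w) ∈ Ω) :
    ∃ g : ℂ → ℂ → ℂ, JD g (Ω ∪ New tc u a h0 ρ) ∧ ∀ p ∈ Ω, g p.1 p.2 = f p.1 p.2 := by
  set m : ℂ × ℂ → ℂ × ℂ := fun p => (tc + p.1 * mu h0 p.2, u + a * p.2) with hm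
  have hmd : Differentiable ℂ m := by
    have h1 : Differentiable ℂ fun p : ℂ × ℂ => tc + p.1 * mu h0 p.2 := by
      have := (mu_diff h0).comp (differentiable_snd (𝕜 := ℂ) (E := ℂ) (F := ℂ))
      exact (differentiable_fst.mul this).const_add _
    have h2 : Differentiable ℂ fun p : ℂ × ℂ => u + a * p.2 := by fun_prop
    exact h1.prodMk h2
  set f' : ℂ → ℂ → ℂ := fun Z ζ => f (tc + Z * mu h0 ζ) (u + a * ζ) with hf'
  set Ω' : Set (ℂ × ℂ) := m ⁻¹' Ω with hΩ'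
  have hΩ'o : IsOpen Ω' := hΩ.preimage hmd.continuous
  have hfJ : JD f' Ω' := by
    exact DifferentiableOn.comp (g := fun p : ℂ × ℂ => f p.1 p.2) (f := m) hf
      hmd.differentiableOn fun p hp => hp
  have hcore := hartogs_core hΩ'o hfJ (w₁ := 0) (r := 1) one_pos (φ := fun _ => 0)
    (U := univ) isOpen_univ (differentiableOn_const _) (subset_univ _)
    (T := ball (0 : ℂ) ρ) (T₀ := ball (0 : ℂ) (min ρ0 ρ)) isOpen_ball
    (by
      intro τ hτ w hw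
      rw [add_zero]
      exact hbd w (by simpa using hw) τ (by simpa using hτ))
    isOpen_ball (ball_subset_ball (min_le_right _ _))
    ⟨0, mem_ball_self (lt_min hρ0 hρ)⟩
    (by
      intro τ hτ w hw
      rw [add_zero]
      exact hin w (by simpa using hw) τ
        (lt_of_lt_of_le (by simpa using hτ) (min_le_left _ _)))
    (by
      intro w hw
      have hst : StarConvex ℝ (0 : ℂ) {τ : ℂ | τ ∈ ball (0 : ℂ) ρ ∧ (τ + 0, w) ∈ Ω'} := by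
        rw [starConvex_zero_iff]
        rintro τ ⟨h1, h2⟩ s hs0 hs1
        refine ⟨?_, ?_⟩
        · have h3 : ‖τ‖ < ρ := by simpa using h1
          simp only [mem_ball, dist_zero_right, norm_smul, Real.norm_eq_abs, abs_of_nonneg hs0]
          calc s * ‖τ‖ ≤ 1 * ‖τ‖ := by gcongr
            _ < ρ := by rw [one_mul]; exact h3
        · have h3 := hstar _ _ s hs0 hs1 h2
          have h4 : (s • τ + 0, w) ∈ Ω' ↔ (tc + (s • τ + 0) * mu h0 w, u + a * w) ∈ Ω := Iff.rfl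
          rw [h4]
          have e : tc + (s • τ + 0) * mu h0 w = tc + s * (tc + (τ + 0) * mu h0 w - tc) := by
            simp only [real_smul]
            ring
          rw [e]
          exact h3
      have hmem : (0 : ℂ) ∈ {τ : ℂ | τ ∈ ball (0 : ℂ) ρ ∧ (τ + 0, w) ∈ Ω'} := by
        refine ⟨mem_ball_self hρ, ?_⟩
        have := hin w (mem_ball_zero_iff.1 hw).le 0 (by simpa using hρ0)
        have h5 : ((0 : ℂ) + 0, w) ∈ Ω' ↔ (tc + (0 + 0) * mu h0 w, u + a * w) ∈ Ω := Iff.rfl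
        rw [h5, add_zero]
        exact this
      exact (hst.isPathConnected hmem).isConnected.isPreconnected)
  obtain ⟨hJ, hag⟩ := hcore
  -- pull back
  set W : Set (ℂ × ℂ) := {p : ℂ × ℂ | p.2 ∈ ball (0 : ℂ) 1 ∧ p.1 - 0 ∈ ball (0 : ℂ) ρ} with hW
  set k : ℂ × ℂ → ℂ × ℂ := fun p => ((p.1 - tc) / mu h0 ((p.2 - u) / a), (p.2 - u) / a) with hk
  have hkd : Differentiable ℂ k := by
    have h1 : Differentiable ℂ fun p : ℂ × ℂ => (p.2 - u) / a := by fun_prop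
    have h2 : Differentiable ℂ fun p : ℂ × ℂ => (mu h0 ((p.2 - u) / a))⁻¹ := by
      have h5 : Differentiable ℂ fun ζ : ℂ => (mu h0 ζ)⁻¹ := fun ζ =>
        (mu_diff h0 ζ).inv (mu_ne _ _)
      exact h5.comp h1
    have h3 : Differentiable ℂ fun p : ℂ × ℂ => (p.1 - tc) / mu h0 ((p.2 - u) / a) := by
      have h4 : Differentiable ℂ (fun p : ℂ × ℂ => p.1 - tc) := by fun_prop
      simp only [div_eq_mul_inv (_ - tc)]
      exact h4.mul h2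
    exact h3.prodMk h1
  have hkN : ∀ p : ℂ × ℂ, p ∈ New tc u a h0 ρ → k p ∈ W := by
    rintro p ⟨h1, h2⟩
    refine ⟨h1, ?_⟩
    rw [sub_zero]
    exact h2
  have hmk : ∀ p : ℂ × ℂ, m (k p) = p := by
    rintro ⟨t, w⟩
    simp only [hm, hk]
    rw [div_mul_cancel₀ _ (mu_ne _ _), mul_div_cancel₀ _ ha]
    simp
  have hJN : JD (fun t w => hart f' (fun _ => 0) 0 1 ((t - tc) / mu h0 ((w - u) / a))
      ((w - u) / a)) (New tc u a h0 ρ) :=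
    DifferentiableOn.comp (g := fun p : ℂ × ℂ => hart f' (fun _ => 0) 0 1 p.1 p.2) (f := k) hJ
      hkd.differentiableOn hkN
  obtain ⟨F, hF1, hF2, -⟩ := JD_glue hΩ (isOpen_New tc u a h0 ρ) hf hJN (by
    intro p hp hpN
    have h1 := hkN p hpN
    have h2 : k p ∈ Ω' := by
      show m (k p) ∈ Ω
      rw [hmk]
      exact hp
    have h3 := hag (k p) h1.1 h1.2 h2
    have h4 : f' (k p).1 (k p).2 = f (m (k p)).1 (m (k p)).2 := rfl
    rw [h4, hmk] at h3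
    exact h3)
  exact ⟨F, hF1, hF2⟩

/-- **D5, local Hartogs figure.** `f` is holomorphic on `{|t - tc| < D, |w - u| ≤ u / 2}` and on
`{|t - tc| < B D}` over the part `|Im w| ≥ s (u / 2)` of the circle `|w - u| = u / 2`. Then at the
real label `u` it extends to `|t - tc| < B ^ (1/2 - s ^ 2) D`. -/
theorem fill {f : ℂ → ℂ → ℂ} {Ω : Set (ℂ × ℂ)} (hΩ : IsOpen Ω) (hf : JD f Ω) {tc : ℂ}
    {u D B s : ℝ} (hu : u ≠ 0) (hD : 0 < D) (hB : 1 ≤ B) (hs : 0 ≤ s) (hs1 : s ≤ 1)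
    (h1 : ∀ w : ℂ, ‖w - u‖ ≤ |u| / 2 → ∀ t : ℂ, ‖t - tc‖ < D → (t, w) ∈ Ω)
    (h2 : ∀ w : ℂ, ‖w - u‖ = |u| / 2 → s * (|u| / 2) ≤ |w.im| → ∀ t : ℂ, ‖t - tc‖ < B * D →
      (t, w) ∈ Ω)
    (hstar : ∀ t w : ℂ, ∀ s : ℝ, 0 ≤ s → s ≤ 1 → (t, w) ∈ Ω → (tc + s * (t - tc), w) ∈ Ω) :
    ∃ (g : ℂ → ℂ → ℂ) (N : Set (ℂ × ℂ)), IsOpen N ∧ JD g (Ω ∪ N) ∧
      (∀ p ∈ Ω, g p.1 p.2 = f p.1 p.2) ∧
      ∀ t : ℂ, ‖t - tc‖ < B ^ (1 / 2 - s ^ 2 : ℝ) * D → (t, (u : ℂ)) ∈ N := by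
  have hB0 : 0 < B := by linarith
  set h0 : ℝ := Real.log B / 2 with hh0
  have hh0' : 0 ≤ h0 := div_nonneg (Real.log_nonneg hB) two_pos.le
  have hBe : B = Real.exp (2 * h0) := by
    rw [hh0, mul_div_cancel₀ _ two_ne_zero, Real.exp_log hB0]
  set ρ : ℝ := D * Real.exp (-(2 * h0 * s ^ 2)) with hρ
  have hρ0 : 0 < ρ := mul_pos hD (Real.exp_pos _)
  set a : ℂ := (u : ℂ) / 2 with ha
  have ha0 : a ≠ 0 := div_ne_zero (ofReal_ne_zero.2 hu) two_ne_zero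
  have han : ‖a‖ = |u| / 2 := by
    rw [ha, norm_div, norm_real, Real.norm_eq_abs]
    norm_num
  have hwn : ∀ ζ : ℂ, ‖(u : ℂ) + a * ζ - u‖ = |u| / 2 * ‖ζ‖ := by
    intro ζ
    rw [add_sub_cancel_left, norm_mul, han]
  have hin0 : ∀ ζ : ℂ, ‖ζ‖ ≤ 1 → ∀ Z : ℂ, ‖Z‖ < D / B → (tc + Z * mu h0 ζ, (u : ℂ) + a * ζ) ∈ Ω := by
    intro ζ hζ Z hZ
    refine h1 _ ?_ _ ?_
    · rw [hwn]
      calc |u| / 2 * ‖ζ‖ ≤ |u| / 2 * 1 := by gcongr
        _ = |u| / 2 := mul_one _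
    · rw [add_sub_cancel_left, norm_mul, norm_mu]
      have h3 : ζ.im ^ 2 ≤ 1 := by
        rw [← sq_abs]
        have := abs_im_le_norm ζ
        exact pow_le_one₀ (abs_nonneg _) (this.trans hζ)
      have h4 : Real.exp (h0 * (1 - ζ.re ^ 2 + ζ.im ^ 2)) ≤ B := by
        rw [hBe]
        apply Real.exp_le_exp.2
        nlinarith [sq_nonneg ζ.re]
      calc ‖Z‖ * Real.exp (h0 * (1 - ζ.re ^ 2 + ζ.im ^ 2)) ≤ ‖Z‖ * B := by gcongr
        _ < D / B * B := by gcongr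
        _ = D := div_mul_cancel₀ _ hB0.ne'
  have hbd0 : ∀ ζ : ℂ, ‖ζ‖ = 1 → ∀ Z : ℂ, ‖Z‖ < ρ →
      (tc + Z * mu h0 ζ, (u : ℂ) + a * ζ) ∈ Ω := by
    intro ζ hζ Z hZ
    have h3 : ζ.re ^ 2 + ζ.im ^ 2 = 1 := by
      have := Complex.sq_norm ζ
      rw [hζ, normSq_apply] at this
      nlinarith
    have h4 : 1 - ζ.re ^ 2 + ζ.im ^ 2 = 2 * ζ.im ^ 2 := by linarith
    have h5 : ‖tc + Z * mu h0 ζ - tc‖ = ‖Z‖ * Real.exp (h0 * (2 * ζ.im ^ 2)) := by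
      rw [add_sub_cancel_left, norm_mul, norm_mu, h4]
    have hw : ‖(u : ℂ) + a * ζ - u‖ = |u| / 2 := by rw [hwn, hζ, mul_one]
    by_cases hc : s ≤ |ζ.im|
    · refine h2 _ hw ?_ _ ?_
      · have e : ((u : ℂ) + a * ζ).im = u / 2 * ζ.im := by
          rw [add_im, ofReal_im, zero_add, ha]
          have : (u : ℂ) / 2 * ζ = ((u / 2 : ℝ) : ℂ) * ζ := by push_cast; ring
          rw [this, im_ofReal_mul]
        rw [e, abs_mul, abs_div, abs_two, mul_comm]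
        gcongr
      · rw [h5]
        have h6 : ζ.im ^ 2 ≤ 1 := by nlinarith [sq_nonneg ζ.re]
        have h7 : Real.exp (h0 * (2 * ζ.im ^ 2)) ≤ B := by
          rw [hBe]
          apply Real.exp_le_exp.2
          nlinarith
        have h8 : ρ ≤ D := by
          rw [hρ]
          have : Real.exp (-(2 * h0 * s ^ 2)) ≤ 1 := by
            apply Real.exp_le_one_iff.2
            have : 0 ≤ 2 * h0 * s ^ 2 := by positivity
            linarith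
          nlinarith
        calc ‖Z‖ * Real.exp (h0 * (2 * ζ.im ^ 2)) ≤ ‖Z‖ * B := by gcongr
          _ < ρ * B := by gcongr
          _ ≤ D * B := by gcongr
          _ = B * D := mul_comm _ _
    · push Not at hc
      refine h1 _ hw.le _ ?_
      rw [h5]
      have h6 : ζ.im ^ 2 ≤ s ^ 2 := by
        rw [← sq_abs ζ.im]
        exact pow_le_pow_left₀ (abs_nonneg _) hc.le 2
      have h7 : Real.exp (h0 * (2 * ζ.im ^ 2)) ≤ Real.exp (2 * h0 * s ^ 2) := by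
        apply Real.exp_le_exp.2
        nlinarith
      calc ‖Z‖ * Real.exp (h0 * (2 * ζ.im ^ 2)) ≤ ‖Z‖ * Real.exp (2 * h0 * s ^ 2) := by gcongr
        _ < ρ * Real.exp (2 * h0 * s ^ 2) := by gcongr
        _ = D := by rw [hρ, mul_assoc, ← Real.exp_add, neg_add_cancel, Real.exp_zero, mul_one]
  obtain ⟨g, hg, hgf⟩ := fill_core hΩ hf (tc := tc) (u := u) ha0 (h0 := h0) (ρ := ρ)
    (ρ0 := D / B) (div_pos hD hB0) hρ0 hbd0 hin0 hstar
  refine ⟨g, New tc u a h0 ρ, isOpen_New _ _ _ _ _, hg, hgf, fun t ht => ⟨?_, ?_⟩⟩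
  · simp
  · have e : ((u : ℂ) - u) / a = 0 := by rw [sub_self, zero_div]
    show (t - tc) / mu h0 (((u : ℂ) - u) / a) ∈ ball (0 : ℂ) ρ
    rw [e, mem_ball_zero_iff, norm_div, norm_mu, zero_re, zero_im]
    have h3 : B ^ (1 / 2 - s ^ 2 : ℝ) * D = ρ * Real.exp (h0 * (1 - 0 ^ 2 + 0 ^ 2)) := by
      rw [hρ, mul_assoc, ← Real.exp_add, mul_comm, Real.rpow_def_of_pos hB0]
      congr 2
      rw [hh0]
      ring
    rw [div_lt_iff₀ (Real.exp_pos _), ← h3]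
    exact ht

end Vale.Agent.P097.H320.Fill
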