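import Vale.Agent.P097.H839.ConeA

/-!
# Two constants theorem in a half disc for weakly superharmonic functions

`half_disc` : `R ≥ -a` on a disc, `R ≥ b` on the real diameter outside a countable set; then
`R ≥ b - (a + b) ω` where `ω` is the harmonic measure of the half circle.
`third` : `R ≥ (b - a) / 2` on the disc of one third of the radius.
-/

set_option linter.all false

open Complex Metric Filter Topology Set
open scoped ComplexConjugate Real

namespace Vale.Agent.P097.H320.Half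

open Vale.Agent.P097.H839.Cone

/-- upper half disc -/
def HD (ρ : ℝ) : Set ℂ := {z | ‖z‖ < ρ ∧ 0 < z.im}

theorem isOpen_HD (ρ : ℝ) : IsOpen (HD ρ) :=
  (isOpen_lt continuous_norm continuous_const).inter (isOpen_lt continuous_const continuous_im)

/-- the Cayley quotient -/
noncomputable def cq (ρ : ℝ) (w : ℂ) : ℂ := ((ρ : ℂ) + w) / (ρ - w)

theorem cq_re (ρ : ℝ) (w : ℂ) : (cq ρ w).re = (ρ ^ 2 - ‖w‖ ^ 2) / normSq (ρ - w) := by
  rw [cq, div_re, ← add_div, Complex.sq_norm, normSq_apply w]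
  simp only [add_re, sub_re, add_im, sub_im, ofReal_re, ofReal_im]
  congr 1
  ring

theorem cq_im (ρ : ℝ) (w : ℂ) : (cq ρ w).im = 2 * ρ * w.im / normSq (ρ - w) := by
  rw [cq, div_im, ← sub_div]
  simp only [add_re, sub_re, add_im, sub_im, ofReal_re, ofReal_im]
  congr 1
  ring

theorem sub_ne {ρ : ℝ} {w : ℂ} (hw : 0 < w.im) : (ρ : ℂ) - w ≠ 0 := by
  intro h
  have := congrArg Complex.im h
  simp at this
  linarith

theorem cq_im_pos {ρ : ℝ} (hρ : 0 < ρ) {w : ℂ} (hw : 0 < w.im) : 0 < (cq ρ w).im := by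
  rw [cq_im]
  exact div_pos (by positivity) (normSq_pos.2 (sub_ne hw))

theorem cq_slit {ρ : ℝ} (hρ : 0 < ρ) {w : ℂ} (hw : 0 < w.im) : cq ρ w ∈ slitPlane :=
  Or.inr (cq_im_pos hρ hw).ne'

theorem cq_diff {ρ : ℝ} : DifferentiableOn ℂ (cq ρ) {w | 0 < w.im} := by
  intro w hw
  unfold cq
  exact ((differentiableAt_id.const_add _).fun_div (differentiableAt_id.const_sub _)
    (sub_ne hw)).differentiableWithinAt

theorem cq_cont {ρ : ℝ} {w : ℂ} (hw : 0 < w.im) : ContinuousAt (cq ρ) w :=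
  (cq_diff.differentiableAt ((isOpen_lt continuous_const continuous_im).mem_nhds hw)).continuousAt

/-- the barrier -/
noncomputable def bar (F : Finset ℕ) (c : ℕ → ℝ) (q : ℕ → ℝ) (ρ : ℝ) (w : ℂ) : ℂ :=
  ∑ k ∈ F, (c k : ℂ) * ((Real.log (2 * ρ) : ℝ) - log (w - q k))

theorem bar_re (F : Finset ℕ) (c : ℕ → ℝ) (q : ℕ → ℝ) (ρ : ℝ) (w : ℂ) :
    (bar F c q ρ w).re = ∑ k ∈ F, c k * (Real.log (2 * ρ) - Real.log ‖w - q k‖) := by
  rw [bar, re_sum]
  refine Finset.sum_congr rfl fun k _ => ?_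
  rw [re_ofReal_mul, sub_re, ofReal_re, log_re]

theorem bar_diff (F : Finset ℕ) (c : ℕ → ℝ) (q : ℕ → ℝ) (ρ : ℝ) :
    DifferentiableOn ℂ (bar F c q ρ) {w | 0 < w.im} := by
  unfold bar
  refine DifferentiableOn.fun_sum fun k _ => ?_
  intro w hw
  have h1 : w - (q k : ℂ) ∈ slitPlane := by
    refine Or.inr ?_
    rw [sub_im, ofReal_im, sub_zero]
    exact (show 0 < w.im from hw).ne'
  have h2 : DifferentiableAt ℂ (fun w : ℂ => log (w - q k)) w :=
    (differentiableAt_id.sub_const _).clog h1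
  exact ((h2.const_sub _).const_mul _).differentiableWithinAt

theorem half_disc_aux {R : ℂ → ℝ} {ρ ρ' a b ε N : ℝ} (hρ' : 0 < ρ') (hρρ : ρ' < ρ)
    (hab : 0 ≤ a + b) (hε : 0 < ε) (hN : 0 < N)
    (hlsc : LowerSemicontinuousOn R (ball 0 ρ)) (hloc : ∀ z ∈ ball (0 : ℂ) ρ, Loc R z)
    (ha : ∀ z ∈ ball (0 : ℂ) ρ, -a ≤ R z) {E : Set ℝ} (hE : E.Countable)
    (hb : ∀ u : ℝ, |u| < ρ → u ∉ E → b ≤ R u) {w : ℂ} (hw : ‖w‖ < ρ') (hi : 0 < w.im) :
    b - ε - (a + b) * (2 / π * arg (cq ρ' w)) -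
      (a + b) * (2 / N * (Real.log (2 * ρ) - Real.log w.im)) ≤ R w := by
  have hρ : 0 < ρ := hρ'.trans hρρ
  have hπ := Real.pi_pos
  have hlr : ∀ u : ℝ, |u| ≤ ρ' → (u : ℂ) ∈ ball (0 : ℂ) ρ := by
    intro u hu
    rw [mem_ball_zero_iff, norm_real, Real.norm_eq_abs]
    linarith
  -- the exceptional compact set
  set K : Set ℝ := {u | |u| ≤ ρ' ∧ (R u ≤ b - ε ∨ |u| = ρ')} with hK
  have hKc : IsCompact K := by
    have hcl : IsClosed K := by
      refine isClosed_of_closure_subset fun u hu => ?_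
      have h1 : |u| ≤ ρ' :=
        closure_minimal (fun v (hv : v ∈ K) => hv.1) (isClosed_le continuous_abs continuous_const) hu
      refine ⟨h1, ?_⟩
      by_contra hcon
      push Not at hcon
      obtain ⟨h2, h3⟩ := hcon
      have h4 := hlsc u (hlr u h1) (b - ε) h2
      rw [isOpen_ball.nhdsWithin_eq (hlr u h1)] at h4
      have h5 : ∀ᶠ v : ℝ in 𝓝 u, b - ε < R v := (continuous_ofReal.tendsto u).eventually h4
      have h6 : ∀ᶠ v : ℝ in 𝓝 u, |v| < ρ' :=
        continuous_abs.tendsto u (Iio_mem_nhds (lt_of_le_of_ne h1 h3))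
      obtain ⟨v, hv, hv1, hv2⟩ :=
        ((mem_closure_iff_frequently.1 hu).and_eventually (h5.and h6)).exists
      rcases hv.2 with h7 | h7
      · exact absurd h7 (not_le.2 hv1)
      · exact absurd h7 hv2.ne
    refine isCompact_of_isClosed_isBounded hcl (isBounded_closedBall.subset (t := closedBall 0 ρ') ?_)
    intro u hu
    rw [mem_closedBall_zero_iff, Real.norm_eq_abs]
    exact hu.1
  have hKcount : K.Countable := by
    refine (hE.union (Set.countable_insert.2 (Set.countable_singleton (-ρ') : ({-ρ'} : Set ℝ).Countable)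
      : (insert ρ' {-ρ'} : Set ℝ).Countable)).mono ?_
    rintro u ⟨h1, h2 | h2⟩
    · left
      by_contra h3
      have := hb u (by linarith) h3
      linarith
    · right
      rcases abs_eq hρ'.le |>.1 h2 with h | h
      · exact Or.inl h
      · exact Or.inr h
  have hKne : K.Nonempty := ⟨ρ', by rw [abs_of_pos hρ'], Or.inr (abs_of_pos hρ')⟩
  obtain ⟨q, hq⟩ := hKcount.exists_eq_range hKne
  have hqK : ∀ k, |q k| ≤ ρ' := fun k => by
    have : q k ∈ K := by rw [hq]; exact mem_range_self k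
    exact this.1
  set c : ℕ → ℝ := fun k => (2 ^ k * N)⁻¹ with hc
  have hc0 : ∀ k, 0 < c k := fun k => by positivity
  set δ : ℕ → ℝ := fun k => 2 * ρ * Real.exp (-(2 ^ k * N)) with hδ
  have hδ0 : ∀ k, 0 < δ k := fun k => by positivity
  have hlogδ : ∀ k, c k * (Real.log (2 * ρ) - Real.log (δ k)) = 1 := by
    intro k
    rw [hδ]
    simp only
    rw [Real.log_mul (by positivity) (Real.exp_ne_zero _), Real.log_exp, hc]
    simp only
    have : (2 : ℝ) ^ k * N ≠ 0 := by positivity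
    field_simp
    ring
  obtain ⟨F, hF⟩ := hKc.elim_finite_subcover (fun k => ball (q k) (δ k)) (fun k => isOpen_ball) (by
    intro u hu
    rw [hq] at hu
    obtain ⟨k, rfl⟩ := hu
    exact mem_iUnion.2 ⟨k, mem_ball_self (hδ0 k)⟩)
  -- size of the barrier
  have hnn : ∀ z : ℂ, ‖z‖ ≤ ρ' → 0 < z.im → ∀ k,
      0 ≤ c k * (Real.log (2 * ρ) - Real.log ‖z - q k‖) := by
    intro z hz hzi k
    refine mul_nonneg (hc0 k).le (sub_nonneg.2 (Real.log_le_log (norm_pos_iff.2 ?_) ?_))
    · intro h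
      have := congrArg Complex.im h
      simp at this
      linarith
    · have h1 := norm_sub_le z (q k : ℂ)
      rw [norm_real, Real.norm_eq_abs] at h1
      have := hqK k
      linarith
  have hbar0 : ∀ z : ℂ, ‖z‖ ≤ ρ' → 0 < z.im → 0 ≤ (bar F c q ρ z).re := by
    intro z hz hzi
    rw [bar_re]
    exact Finset.sum_nonneg fun k _ => hnn z hz hzi k
  have hbar1 : ∀ z : ℂ, ‖z‖ ≤ ρ' → 0 < z.im → ∀ k ∈ F, ‖z - q k‖ < δ k →
      1 ≤ (bar F c q ρ z).re := by
    intro z hz hzi k hk hzk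
    rw [bar_re]
    refine le_trans ?_ (Finset.single_le_sum (fun j _ => hnn z hz hzi j) hk)
    rw [← hlogδ k]
    have h1 : 0 < ‖z - q k‖ := by
      refine norm_pos_iff.2 fun h => ?_
      have := congrArg Complex.im h
      simp at this
      linarith
    have h2 := Real.log_le_log h1 hzk.le
    have := hc0 k
    nlinarith
  have hbar2 : (bar F c q ρ w).re ≤ 2 / N * (Real.log (2 * ρ) - Real.log w.im) := by
    rw [bar_re]
    have h0 : 0 ≤ Real.log (2 * ρ) - Real.log w.im := by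
      refine sub_nonneg.2 (Real.log_le_log hi ?_)
      have := abs_im_le_norm w
      rw [abs_of_pos hi] at this
      linarith
    have h1 : ∀ k ∈ F, c k * (Real.log (2 * ρ) - Real.log ‖w - q k‖) ≤
        (1 / 2) ^ k * (1 / N * (Real.log (2 * ρ) - Real.log w.im)) := by
      intro k _
      have h2 : w.im ≤ ‖w - q k‖ := by
        have := abs_im_le_norm (w - q k)
        rw [sub_im, ofReal_im, sub_zero, abs_of_pos hi] at this
        exact this
      have h3 := Real.log_le_log hi h2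
      have h4 : (1 / 2 : ℝ) ^ k * (1 / N * (Real.log (2 * ρ) - Real.log w.im)) =
          c k * (Real.log (2 * ρ) - Real.log w.im) := by
        rw [hc]
        simp only
        rw [mul_inv, one_div_pow]
        ring
      rw [h4]
      have := hc0 k
      nlinarith
    have h5 : ∑ k ∈ F, ((1 : ℝ) / 2) ^ k ≤ 2 := by
      exact (summable_geometric_two.sum_le_tsum F fun k _ => by positivity).trans
        tsum_geometric_two.le
    calc ∑ k ∈ F, c k * (Real.log (2 * ρ) - Real.log ‖w - q k‖)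
        ≤ ∑ k ∈ F, (1 / 2) ^ k * (1 / N * (Real.log (2 * ρ) - Real.log w.im)) :=
          Finset.sum_le_sum h1
      _ = (∑ k ∈ F, ((1 : ℝ) / 2) ^ k) * (1 / N * (Real.log (2 * ρ) - Real.log w.im)) := by
          rw [Finset.sum_mul]
      _ ≤ 2 * (1 / N * (Real.log (2 * ρ) - Real.log w.im)) := by
          have : 0 ≤ 1 / N * (Real.log (2 * ρ) - Real.log w.im) := by positivity
          gcongr
      _ = 2 / N * (Real.log (2 * ρ) - Real.log w.im) := by ring
  -- the harmonic minorant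
  set G : ℂ → ℂ := fun z => ((b - ε : ℝ) : ℂ) -
    (((a + b) * (2 / π) : ℝ) : ℂ) * (-I * log (cq ρ' z)) - ((a + b : ℝ) : ℂ) * bar F c q ρ z with hG
  have hGre : ∀ z, (G z).re = b - ε - (a + b) * (2 / π * arg (cq ρ' z)) -
      (a + b) * (bar F c q ρ z).re := by
    intro z
    have h1 : (-I * log (cq ρ' z)).re = arg (cq ρ' z) := by
      rw [neg_mul, neg_re, I_mul_re, neg_neg, log_im]
    rw [hG]
    simp only
    rw [sub_re, sub_re, ofReal_re, re_ofReal_mul, re_ofReal_mul, h1]
    ring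
  have hGd : DifferentiableOn ℂ G {z | 0 < z.im} := by
    have h1 : DifferentiableOn ℂ (fun z => log (cq ρ' z)) {z : ℂ | 0 < z.im} :=
      cq_diff.clog fun z hz => cq_slit hρ' hz
    exact ((differentiableOn_const _).sub ((h1.const_mul _).const_mul _)).sub
      ((bar_diff F c q ρ).const_mul _)
  have hsub : HD ρ' ⊆ ball (0 : ℂ) ρ := fun z hz => by
    rw [mem_ball_zero_iff]
    exact hz.1.trans hρρ
  have hGc : ContinuousOn (fun z => -(G z).re) {z : ℂ | 0 < z.im} :=
    (continuous_re.comp_continuousOn hGd.continuousOn).neg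
  have harg0 : ∀ z : ℂ, 0 < z.im → 0 ≤ arg (cq ρ' z) := fun z hz =>
    arg_nonneg_iff.2 (cq_im_pos hρ' hz).le
  have hmin := min_principle (R := fun z => R z - (G z).re) (isOpen_HD ρ')
    (isBounded_ball.subset (t := ball (0 : ℂ) ρ) hsub)
    (by
      have h1 := (hlsc.mono hsub).add
        ((hGc.mono fun z (hz : z ∈ HD ρ') => hz.2).lowerSemicontinuousOn)
      simpa only [sub_eq_add_neg] using h1)
    (fun z hz => (hloc z (hsub hz)).sub (isOpen_lt continuous_const continuous_im) hz.2 hGd)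
    (by
      intro ζ hζ d hd
      rw [(isOpen_HD ρ').frontier_eq] at hζ
      obtain ⟨hζ1, hζ2⟩ := hζ
      have hn : ‖ζ‖ ≤ ρ' := closure_minimal (fun v (hv : v ∈ HD ρ') => hv.1.le)
        (isClosed_le continuous_norm continuous_const) hζ1
      have hm : 0 ≤ ζ.im := closure_minimal (fun v (hv : v ∈ HD ρ') => hv.2.le)
        (isClosed_le continuous_const continuous_im) hζ1
      rcases hm.lt_or_eq with hpos | hzero
      · -- on the circle
        have hn' : ‖ζ‖ = ρ' := by
          by_contra h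
          exact hζ2 ⟨lt_of_le_of_ne hn h, hpos⟩
        have h1 : arg (cq ρ' ζ) = π / 2 := by
          rw [arg_eq_pi_div_two_iff, cq_re, hn', sub_self, zero_div]
          exact ⟨rfl, cq_im_pos hρ' hpos⟩
        have h2 : Tendsto (fun z => -a - (b - ε) + (a + b) * (2 / π * arg (cq ρ' z))) (𝓝 ζ)
            (𝓝 (-a - (b - ε) + (a + b) * (2 / π * (π / 2)))) := by
          have h3 : Tendsto (fun z => arg (cq ρ' z)) (𝓝 ζ) (𝓝 (π / 2)) := by
            rw [← h1]
            exact (continuousAt_arg (cq_slit hρ' hpos)).comp (cq_cont hpos)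
          exact ((h3.const_mul _).const_mul _).const_add _
        have h4 : -a - (b - ε) + (a + b) * (2 / π * (π / 2)) = ε := by
          field_simp
          ring
        rw [h4] at h2
        have h5 := h2 (Ioi_mem_nhds (show -d < ε by linarith))
        rw [eventually_nhdsWithin_iff]
        filter_upwards [h5] with z hz hzU
        have hz' : -d < -a - (b - ε) + (a + b) * (2 / π * arg (cq ρ' z)) := hz
        have h6 := ha z (hsub hzU)
        have h7 := hbar0 z hzU.1.le hzU.2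
        rw [hGre]
        nlinarith [mul_nonneg hab h7]
      · -- on the real line
        obtain ⟨u, rfl⟩ : ∃ u : ℝ, ζ = u := ⟨ζ.re, by
          apply Complex.ext
          · rw [ofReal_re]
          · rw [ofReal_im]; exact hzero.symm⟩
        have hu : |u| ≤ ρ' := by rwa [norm_real, Real.norm_eq_abs] at hn
        by_cases huK : u ∈ K
        · obtain ⟨k, hk⟩ := mem_iUnion.1 (hF huK)
          obtain ⟨hkF, hk⟩ := mem_iUnion.1 hk
          have h1 : ∀ᶠ z : ℂ in 𝓝 (u : ℂ), ‖z - q k‖ < δ k := by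
            have h2 : Continuous fun z : ℂ => ‖z - q k‖ := by fun_prop
            refine h2.tendsto (u : ℂ) (Iio_mem_nhds ?_)
            have h3 : ‖(u : ℂ) - q k‖ = |u - q k| := by
              rw [← ofReal_sub, norm_real, Real.norm_eq_abs]
            rw [h3, ← Real.dist_eq]
            exact hk
          rw [eventually_nhdsWithin_iff]
          filter_upwards [h1] with z hz hzU
          have h6 := ha z (hsub hzU)
          have h7 := hbar1 z hzU.1.le hzU.2 k hkF hz
          have h8 := harg0 z hzU.2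
          rw [hGre]
          have h9 : 0 ≤ (a + b) * (2 / π * arg (cq ρ' z)) := by positivity
          nlinarith [mul_le_mul_of_nonneg_left h7 hab]
        · have h1 : b - ε < R u := by
            by_contra h
            push Not at h
            exact huK ⟨hu, Or.inl h⟩
          have h2 := hlsc u (hlr u hu) (b - ε) h1
          rw [isOpen_ball.nhdsWithin_eq (hlr u hu)] at h2
          rw [eventually_nhdsWithin_iff]
          filter_upwards [h2] with z hz hzU
          have h7 := hbar0 z hzU.1.le hzU.2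
          have h8 := harg0 z hzU.2
          rw [hGre]
          have h9 : 0 ≤ (a + b) * (2 / π * arg (cq ρ' z)) := by positivity
          nlinarith [mul_nonneg hab h7])
  have h1 : 0 ≤ R w - (G w).re := hmin w ⟨hw, hi⟩
  rw [hGre] at h1
  have h2 := mul_le_mul_of_nonneg_left hbar2 hab
  linarith

/-- **two constants theorem in the half disc, with a countable exceptional set** -/
theorem half_disc {R : ℂ → ℝ} {ρ a b : ℝ} (hab : 0 ≤ a + b)
    (hlsc : LowerSemicontinuousOn R (ball 0 ρ)) (hloc : ∀ z ∈ ball (0 : ℂ) ρ, Loc R z)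
    (ha : ∀ z ∈ ball (0 : ℂ) ρ, -a ≤ R z) {E : Set ℝ} (hE : E.Countable)
    (hb : ∀ u : ℝ, |u| < ρ → u ∉ E → b ≤ R u) {w : ℂ} (hw : ‖w‖ < ρ) (hi : 0 < w.im) :
    b - (a + b) * (2 / π * arg (cq ρ w)) ≤ R w := by
  have hρ : 0 < ρ := (norm_nonneg w).trans_lt hw
  have key : ∀ ρ' : ℝ, ‖w‖ < ρ' → ρ' < ρ → b - (a + b) * (2 / π * arg (cq ρ' w)) ≤ R w := by
    intro ρ' h1 h2
    have hρ' : 0 < ρ' := (norm_nonneg w).trans_lt h1
    have h3 : Tendsto (fun n : ℕ => b - 1 / ((n : ℝ) + 1) - (a + b) * (2 / π * arg (cq ρ' w)) -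
        (a + b) * ((2 * (1 / ((n : ℝ) + 1))) * (Real.log (2 * ρ) - Real.log w.im))) atTop
        (𝓝 (b - 0 - (a + b) * (2 / π * arg (cq ρ' w)) -
        (a + b) * ((2 * 0) * (Real.log (2 * ρ) - Real.log w.im)))) := by
      have h4 := tendsto_one_div_add_atTop_nhds_zero_nat (𝕜 := ℝ)
      exact ((tendsto_const_nhds.sub h4).sub_const _).sub
        (((h4.const_mul 2).mul_const _).const_mul _)
    have h5 : b - 0 - (a + b) * (2 / π * arg (cq ρ' w)) -
        (a + b) * ((2 * 0) * (Real.log (2 * ρ) - Real.log w.im)) =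
        b - (a + b) * (2 / π * arg (cq ρ' w)) := by ring
    rw [h5] at h3
    refine le_of_tendsto' h3 fun n => ?_
    have hn : (0 : ℝ) < (n : ℝ) + 1 := by positivity
    have := half_disc_aux hρ' h2 hab (one_div_pos.2 hn) hn hlsc hloc ha hE hb h1 hi
    rw [mul_one_div]
    exact this
  have h1 : Tendsto (fun ρ' : ℝ => b - (a + b) * (2 / π * arg (cq ρ' w))) (𝓝[<] ρ)
      (𝓝 (b - (a + b) * (2 / π * arg (cq ρ w)))) := by
    have h2 : ContinuousAt (fun ρ' : ℝ => cq ρ' w) ρ := by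
      unfold cq
      exact ContinuousAt.div (by fun_prop) (by fun_prop) (sub_ne hi)
    have h3 : Tendsto (fun ρ' : ℝ => arg (cq ρ' w)) (𝓝 ρ) (𝓝 (arg (cq ρ w))) :=
      ((continuousAt_arg (cq_slit hρ hi)).tendsto).comp h2.tendsto
    exact (((h3.const_mul _).const_mul _).const_sub _).mono_left nhdsWithin_le_nhds
  have hne : (𝓝[<] ρ).NeBot := inferInstance
  refine le_of_tendsto h1 ?_
  filter_upwards [self_mem_nhdsWithin, mem_nhdsWithin_of_mem_nhds (Ioi_mem_nhds hw)] with ρ' h2 h3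
  exact key ρ' h3 h2

/-- the harmonic measure is at most one half on the disc of radius `2 ρ / 5` -/
theorem arg_cq_le {ρ : ℝ} {w : ℂ} (hw : ‖w‖ ≤ 2 * ρ / 5) (hi : 0 < w.im) :
    arg (cq ρ w) ≤ π / 4 := by
  have hn : w.im ≤ ‖w‖ := (le_abs_self _).trans (abs_im_le_norm w)
  have hρ : 0 < ρ := by linarith
  have h1 := cq_im_pos hρ hi
  have h2 : (cq ρ w).im ≤ (cq ρ w).re := by
    rw [cq_im, cq_re]
    have := normSq_nonneg ((ρ : ℂ) - w)
    gcongr
    nlinarith [norm_nonneg w]
  have hre : 0 < (cq ρ w).re := h1.trans_le h2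
  have h3 : |arg (cq ρ w)| < π / 2 := abs_arg_lt_pi_div_two_iff.2 (Or.inl hre)
  have h4 : 0 ≤ arg (cq ρ w) := arg_nonneg_iff.2 h1.le
  have hz : cq ρ w ≠ 0 := fun h => by rw [h] at hre; simp at hre
  by_contra hcon
  push Not at hcon
  rw [abs_of_nonneg h4] at h3
  have h5 : Real.tan (π / 4) < Real.tan (arg (cq ρ w)) :=
    Real.tan_lt_tan_of_lt_of_lt_pi_div_two (by linarith [Real.pi_pos]) h3 hcon
  rw [Real.tan_pi_div_four, tan_arg, lt_div_iff₀ hre, one_mul] at h5
  linarith

/-- **D6.** lower bound on the disc of one third of the radius -/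
theorem third {R : ℂ → ℝ} {ρ a b : ℝ} (hab : 0 ≤ a + b)
    (hlsc : LowerSemicontinuousOn R (ball 0 ρ)) (hloc : ∀ z ∈ ball (0 : ℂ) ρ, Loc R z)
    (hsym : ∀ z ∈ ball (0 : ℂ) ρ, R (conj z) = R z)
    (ha : ∀ z ∈ ball (0 : ℂ) ρ, -a ≤ R z) {E : Set ℝ} (hE : E.Countable)
    (hb : ∀ u : ℝ, |u| < ρ → u ∉ E → b ≤ R u) {w : ℂ} (hw : ‖w‖ ≤ ρ / 3) (hρ : 0 < ρ) :
    (b - a) / 2 ≤ R w := by
  have hπ := Real.pi_pos
  have up : ∀ z : ℂ, ‖z‖ ≤ 2 * ρ / 5 → 0 < z.im → (b - a) / 2 ≤ R z := by
    intro z hz hzi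
    have h1 := half_disc hab hlsc hloc ha hE hb (w := z) (by linarith) hzi
    have h2 := arg_cq_le hz hzi
    have h3 : 2 / π * arg (cq ρ z) ≤ 1 / 2 := by
      have : 2 / π * arg (cq ρ z) ≤ 2 / π * (π / 4) := by gcongr
      have e : 2 / π * (π / 4) = 1 / 2 := by
        field_simp
        norm_num
      rwa [e] at this
    nlinarith [mul_le_mul_of_nonneg_left h3 hab]
  have nonreal : ∀ z : ℂ, ‖z‖ ≤ 2 * ρ / 5 → z.im ≠ 0 → (b - a) / 2 ≤ R z := by
    intro z hz hzi
    rcases lt_or_gt_of_ne hzi with h | h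
    · rw [← hsym z (by rw [mem_ball_zero_iff]; linarith)]
      refine up _ (by rwa [norm_conj]) ?_
      rw [conj_im]
      linarith
    · exact up z hz h
  by_cases hwi : w.im = 0
  · obtain ⟨u, rfl⟩ : ∃ u : ℝ, w = u := ⟨w.re, by
      apply Complex.ext
      · rw [ofReal_re]
      · rw [ofReal_im]; exact hwi⟩
    obtain ⟨r₀, hr₀, h1⟩ := hloc u (by rw [mem_ball_zero_iff]; linarith)
    set s : ℝ := min r₀ (ρ / 15) / 2 with hs
    have hs0 : 0 < s := by
      have : 0 < min r₀ (ρ / 15) := lt_min hr₀ (by positivity)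
      positivity
    have hs1 : s < r₀ := by
      have : 0 < min r₀ (ρ / 15) := lt_min hr₀ (by positivity)
      have := min_le_left r₀ (ρ / 15)
      rw [hs]; linarith
    have hs2 : s ≤ ρ / 15 := by
      have : 0 < min r₀ (ρ / 15) := lt_min hr₀ (by positivity)
      have := min_le_right r₀ (ρ / 15)
      rw [hs]; linarith
    have hsp : ∀ z ∈ sphere (u : ℂ) s, ‖z‖ ≤ 2 * ρ / 5 := by
      intro z hz
      rw [mem_sphere, dist_eq_norm] at hz
      have h2 := norm_add_le (z - u) (u : ℂ)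
      rw [sub_add_cancel, hz] at h2
      linarith
    refine real_centre hs0 (h1 s hs0 hs1) (B := a) (fun z hz => ?_) fun z hz hzi => ?_
    · exact ha z (by rw [mem_ball_zero_iff]; linarith [hsp z hz])
    · exact nonreal z (hsp z hz) hzi
  · exact nonreal w (by linarith) hwi

end Vale.Agent.P097.H320.Half
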