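import Vale.Agent.P097.H402.Alg.Defs
import Vale.Agent.P097.H128.Conic
import Vale.Agent.P097.Reg.STab

/-! # P097 / ALG-KC : constant conic invariant, the table is an ellipse

On the real axis `kap R = ((v'' + 4 v) / 2) ^ 3` with `v = ρ ^ (-2 / 3)`. -/

set_option linter.all false

open Complex Metric Filter Topology Set
open scoped ContDiff

namespace Vale.Agent.P097.H320

open Vale.Agent.P097.H202

/-- derivatives on the real axis of a holomorphic function with real values there -/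
lemma deriv_of_real {δ : ℝ} (hδ : 0 < δ) {R : ℂ → ℂ} {g : ℝ → ℝ}
    (hR : DifferentiableOn ℂ R (Str δ)) (hg : Differentiable ℝ g)
    (h : ∀ x : ℝ, R x = (g x : ℂ)) (x : ℝ) : deriv R x = ((deriv g x : ℝ) : ℂ) := by
  have h1 : HasDerivAt R (deriv R x) (x : ℂ) :=
    (hR.differentiableAt ((isOpen_Str δ).mem_nhds (real_mem_Str hδ x))).hasDerivAt
  have h2 : HasDerivAt (fun y : ℝ => R y) (deriv R x) x := h1.comp_ofReal
  have h3 : HasDerivAt (fun y : ℝ => ((g y : ℝ) : ℂ)) ((deriv g x : ℝ) : ℂ) x :=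
    (hg x).hasDerivAt.ofReal_comp
  have h4 : (fun y : ℝ => R y) = fun y : ℝ => ((g y : ℝ) : ℂ) := funext h
  rw [h4] at h2
  exact h2.unique h3

theorem pkc : Alg.PKC := by
  intro h R δ c hs hδ hR hreal hkap
  obtain ⟨hsm, hper, hpos⟩ := hs
  set g : ℝ → ℝ := fun x => h x + deriv (deriv h) x with hg
  have hd1 : ContDiff ℝ ∞ (deriv h) := (contDiff_infty_iff_deriv.1 hsm).2
  have hd2 : ContDiff ℝ ∞ (deriv (deriv h)) := (contDiff_infty_iff_deriv.1 hd1).2
  have gsm : ContDiff ℝ ∞ g := hsm.add hd2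
  have gd1 : ContDiff ℝ ∞ (deriv g) := (contDiff_infty_iff_deriv.1 gsm).2
  have g1 : Differentiable ℝ g := gsm.differentiable (by simp)
  have g2 : Differentiable ℝ (deriv g) := gd1.differentiable (by simp)
  have gpos : ∀ x, 0 < g x := hpos
  have r0 : ∀ x : ℝ, R x = ((g x : ℝ) : ℂ) := hreal
  have r1 : ∀ x : ℝ, deriv R x = ((deriv g x : ℝ) : ℂ) := deriv_of_real hδ hR g1 r0
  have r2 : ∀ x : ℝ, deriv (deriv R) x = ((deriv (deriv g) x : ℝ) : ℂ) :=
    deriv_of_real hδ (hR.deriv (isOpen_Str δ)) g2 r1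
  -- the function `v`
  set v : ℝ → ℝ := fun x => g x ^ (-(2 / 3) : ℝ) with hv
  have v1 : ∀ x, HasDerivAt v (deriv g x * (-(2 / 3)) * g x ^ (-(2 / 3) - 1 : ℝ)) x := fun x =>
    (g1 x).hasDerivAt.rpow_const (Or.inl (gpos x).ne')
  have dv : deriv v = fun x => deriv g x * (-(2 / 3)) * g x ^ (-(2 / 3) - 1 : ℝ) :=
    funext fun x => (v1 x).deriv
  have v2 : ∀ x, HasDerivAt (deriv v) (deriv (deriv g) x * (-(2 / 3)) * g x ^ (-(2 / 3) - 1 : ℝ) +
      deriv g x * (-(2 / 3)) * (deriv g x * (-(2 / 3) - 1) * g x ^ (-(2 / 3) - 1 - 1 : ℝ))) x := by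
    intro x
    rw [dv]
    exact ((g2 x).hasDerivAt.mul_const _).mul ((g1 x).hasDerivAt.rpow_const (Or.inl (gpos x).ne'))
  have hvpos : ∀ x, 0 < v x := fun x => Real.rpow_pos_of_pos (gpos x) _
  -- powers of `g`
  have p1 : ∀ x, g x ^ (-(2 / 3) - 1 : ℝ) = v x / g x := fun x => by
    rw [Real.rpow_sub_one (gpos x).ne']
  have p2 : ∀ x, g x ^ (-(2 / 3) - 1 - 1 : ℝ) = v x / g x ^ 2 := fun x => by
    rw [Real.rpow_sub_one (gpos x).ne', p1 x, div_div, ← sq]
  have p3 : ∀ x, v x ^ 3 * g x ^ 2 = 1 := fun x => by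
    have e : v x ^ 3 = g x ^ (-2 : ℝ) := by
      rw [hv, ← Real.rpow_natCast, ← Real.rpow_mul (gpos x).le]
      norm_num
    rw [e, Real.rpow_neg (gpos x).le, Real.rpow_two]
    exact inv_mul_cancel₀ (pow_ne_zero _ (gpos x).ne')
  -- the cube of `v'' + 4 v`
  have key : ∀ x, (deriv (deriv v) x + 4 * v x) ^ 3 = 8 * c.re := by
    intro x
    have e1 : (2 * g x ^ 2 + 5 / 9 * deriv g x ^ 2 - 1 / 3 * (g x * deriv (deriv g) x)) ^ 3 /
        g x ^ 8 = c.re := by
      have e2 := hkap x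
      rw [Alg.kap, r0, r1, r2] at e2
      rw [← e2, ← ofReal_re ((2 * g x ^ 2 + 5 / 9 * deriv g x ^ 2 -
        1 / 3 * (g x * deriv (deriv g) x)) ^ 3 / g x ^ 8)]
      push_cast
      rfl
    rw [← e1, (v2 x).deriv, p1 x, p2 x]
    have hp := (gpos x).ne'
    have e3 := p3 x
    generalize deriv (deriv g) x = g'' at *
    generalize deriv g x = g' at *
    have e4 : v x ^ 3 = 1 / g x ^ 2 := by
      rw [eq_div_iff (by positivity)]
      exact e3
    have e5 : (g'' * (-(2 / 3)) * (v x / g x) + g' * (-(2 / 3)) *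
        (g' * (-(2 / 3) - 1) * (v x / g x ^ 2)) + 4 * v x) =
        v x * (2 * (2 * g x ^ 2 + 5 / 9 * g' ^ 2 - 1 / 3 * (g x * g'')) / g x ^ 2) := by
      field_simp
      ring
    rw [e5, mul_pow, e4]
    field_simp
    ring
  have hconst : ∀ x, deriv (deriv v) x + 4 * v x = deriv (deriv v) 0 + 4 * v 0 := by
    intro x
    have := (key x).trans (key 0).symm
    exact (Odd.strictMono_pow (by decide : Odd 3)).injective this
  refine H128.conic_of_const (v := v) (hsm.differentiable (by simp))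
    (hd1.differentiable (by simp)) (fun x => (v1 x).differentiableAt)
    (fun x => (v2 x).differentiableAt) hvpos (fun x => ?_) hconst
  have e1 : √(v x) ^ 3 * g x = 1 := by
    have e2 : (√(v x) ^ 3 * g x) ^ 2 = 1 := by
      rw [mul_pow, ← pow_mul, show 3 * 2 = 2 * 3 by norm_num, pow_mul, Real.sq_sqrt (hvpos x).le]
      exact p3 x
    have e3 : 0 ≤ √(v x) ^ 3 * g x := by
      have := gpos x
      positivity
    nlinarith
  rw [mul_comm]
  exact e1

end Vale.Agent.P097.H320
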