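import Vale.Agent.P097.H82.Der

/-! # P097 / PERIMETER, [P1]: exactness descends from an algebraic extension

If `d G = a` with `G` algebraic over `M` and `a ∈ M`, then `a = d G'` with `G' ∈ M`. -/

set_option linter.all false

open Polynomial

namespace Vale.Agent.P097.H320

open Vale.Agent.P097.H82

variable {M k : Type*} [Field M] [Field k] [Algebra M k]

/-- derivative of the coefficients -/
noncomputable def dco (d0 : M → M) (P : M[X]) : M[X] := P.sum fun i c => monomial i (d0 c)

theorem dco_add {d0 : M → M} (h0 : IsDer (RingHom.id M) d0) (P Q : M[X]) :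
    dco d0 (P + Q) = dco d0 P + dco d0 Q :=
  Polynomial.sum_add_index P Q _ (fun i => by rw [h0.zero, monomial_zero_right])
    (fun i a b => by rw [h0.add, map_add])

theorem dco_monomial {d0 : M → M} (h0 : IsDer (RingHom.id M) d0) (n : ℕ) (c : M) :
    dco d0 (monomial n c) = monomial n (d0 c) :=
  Polynomial.sum_monomial_index c _ (by rw [h0.zero, monomial_zero_right])

theorem coeff_dco {d0 : M → M} (h0 : IsDer (RingHom.id M) d0) (P : M[X]) (n : ℕ) :
    (dco d0 P).coeff n = d0 (P.coeff n) := by
  induction P using Polynomial.induction_on' with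
  | add p q hp hq => rw [dco_add h0, coeff_add, coeff_add, hp, hq, h0.add]
  | monomial m c =>
    rw [dco_monomial h0, coeff_monomial, coeff_monomial]
    split_ifs
    · rfl
    · exact h0.zero.symm

/-- a derivation at a polynomial expression -/
theorem der_aeval {d : k → k} (hd : IsDer (RingHom.id k) d) {d0 : M → M}
    (h0 : IsDer (RingHom.id M) d0) (hext : ∀ x : M, d (algebraMap M k x) = algebraMap M k (d0 x))
    (P : M[X]) (G : k) :
    d (aeval G P) = aeval G (dco d0 P) + aeval G (derivative P) * d G := by
  induction P using Polynomial.induction_on' with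
  | add p q hp hq =>
    rw [map_add, hd.add, hp, hq, dco_add h0, map_add, derivative_add, map_add]
    ring
  | monomial n c =>
    rw [aeval_monomial, hd.mul, hext, hd.pow, dco_monomial h0, aeval_monomial,
      derivative_monomial, aeval_monomial]
    simp only [map_mul, map_natCast, RingHom.id_apply]
    ring

/-- **[P1]** exactness descends -/
theorem exact_descends [CharZero M] {d : k → k} (hd : IsDer (RingHom.id k) d) {d0 : M → M}
    (h0 : IsDer (RingHom.id M) d0) (hext : ∀ x : M, d (algebraMap M k x) = algebraMap M k (d0 x))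
    {G : k} (hG : IsIntegral M G) {a : M} (h : d G = algebraMap M k a) : ∃ G' : M, d0 G' = a := by
  set P := minpoly M G with hP
  have hmon : P.Monic := minpoly.monic hG
  have hpos : 0 < P.natDegree := minpoly.natDegree_pos hG
  set n := P.natDegree with hn
  set Q : M[X] := dco d0 P + derivative P * C a with hQ
  have hQ0 : aeval G Q = 0 := by
    have h1 := der_aeval hd h0 hext P G
    rw [hP, minpoly.aeval, hd.zero, h] at h1
    rw [hQ, map_add, map_mul, aeval_C]
    exact h1.symm
  have hcoef : ∀ i, Q.coeff i = d0 (P.coeff i) + P.coeff (i + 1) * (i + 1) * a := by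
    intro i
    rw [hQ, coeff_add, coeff_dco h0, coeff_mul_C, coeff_derivative]
  have hdeg : Q.degree < P.degree := by
    rw [degree_eq_natDegree hmon.ne_zero, degree_lt_iff_coeff_zero]
    intro m hm
    rw [hcoef]
    have h2 : P.coeff (m + 1) = 0 := coeff_eq_zero_of_natDegree_lt (by omega)
    rw [h2]
    rcases Nat.lt_or_ge n m with h3 | h3
    · rw [coeff_eq_zero_of_natDegree_lt (by omega), h0.zero]
      ring
    · have h4 : m = n := le_antisymm h3 hm
      rw [h4, hn, hmon.coeff_natDegree, h0.one]
      ring
  have hzero : Q = 0 := by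
    by_contra hne
    exact absurd (minpoly.degree_le_of_ne_zero M G hne hQ0) (not_le.2 hdeg)
  have h5 := hcoef (n - 1)
  have h6 : n - 1 + 1 = n := by omega
  rw [hzero, coeff_zero, h6] at h5
  have h7 : P.coeff n = 1 := hmon.coeff_natDegree
  have h8 : ((n - 1 : ℕ) : M) + 1 = n := by
    rw [← Nat.cast_succ, Nat.succ_eq_add_one, h6]
  rw [h7, h8, one_mul] at h5
  have hn0 : (n : M) ≠ 0 := Nat.cast_ne_zero.2 (by omega)
  refine ⟨-P.coeff (n - 1) / n, ?_⟩
  rw [h0.div _ hn0, h0.natCast, h0.neg]
  simp only [RingHom.id_apply]
  field_simp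
  linear_combination (n : M) * h5

end Vale.Agent.P097.H320
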