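import Vale.Agent.P097.H320.PerC
import Vale.Agent.P097.H82.Reg
import Vale.Agent.P097.Defs

/-! # P097 / PERIMETER, [P3]: the form `p dφ` of the tangent lines of a table is not exact

The tangent line with normal angle `φ x`: `e = c exp (i φ)`, `m = 2 h(φ) exp (i φ)`
(`c = ± i` for `p = x + i y`, `q = x - i y`, `p = e ^ 2 q + m`). -/

set_option linter.all false

open Complex Metric Filter Topology Set

namespace Vale.Agent.P097.H320

open Vale.Agent.P097.H82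

/-- the perimeter in a coordinate `φ` -/
theorem perim {h φ : ℝ → ℝ} (hh : IsTable h) (aφ : ∀ x, AnalyticAt ℝ φ x)
    (φp : ∀ x, φ (x + 1) = φ x + 2 * Real.pi) :
    0 < ∫ x in (0 : ℝ)..1, h (φ x) * deriv φ x := by
  obtain ⟨ha, hp, hpos⟩ := hh
  have hc : Continuous h := continuous_iff_continuousAt.2 fun x => (ha x).continuousAt
  have ha1 : ∀ x, AnalyticAt ℝ (deriv h) x := fun x => (ha x).deriv
  have ha2 : ∀ x, AnalyticAt ℝ (deriv (deriv h)) x := fun x => (ha1 x).deriv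
  have hc1 : Continuous (deriv h) := continuous_iff_continuousAt.2 fun x => (ha1 x).continuousAt
  have hc2 : Continuous (deriv (deriv h)) :=
    continuous_iff_continuousAt.2 fun x => (ha2 x).continuousAt
  have dφ : ∀ x, HasDerivAt φ (deriv φ x) x := fun x => (aφ x).differentiableAt.hasDerivAt
  have cφ : Continuous (deriv φ) :=
    continuous_iff_continuousAt.2 fun x => (aφ x).deriv.continuousAt
  have h1 : ∫ x in (0 : ℝ)..1, (h ∘ φ) x * deriv φ x = ∫ u in φ 0..φ 1, h u :=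
    intervalIntegral.integral_comp_mul_deriv (fun x _ => dφ x) cφ.continuousOn hc
  have h2 : φ 1 = φ 0 + 2 * Real.pi := by
    have := φp 0
    rwa [zero_add] at this
  have hp1 : ∀ x, deriv h (x + 2 * Real.pi) = deriv h x := by
    intro x
    have e1 : (fun y => h (y + 2 * Real.pi)) = h := funext hp
    have e2 := deriv_comp_add_const h (2 * Real.pi) x
    rw [← e2, e1]
  have h3 : ∫ u in φ 0..(φ 0 + 2 * Real.pi), deriv (deriv h) u = 0 := by
    rw [intervalIntegral.integral_deriv_eq_sub (fun x _ => (ha1 x).differentiableAt)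
      (hc2.intervalIntegrable _ _), hp1, sub_self]
  have h4 : 0 < ∫ u in φ 0..(φ 0 + 2 * Real.pi), (h u + deriv (deriv h) u) := by
    refine intervalIntegral.intervalIntegral_pos_of_pos
      ((hc.add hc2).intervalIntegrable _ _) hpos ?_
    linarith [Real.pi_pos]
  rw [intervalIntegral.integral_add (hc.intervalIntegrable _ _) (hc2.intervalIntegrable _ _), h3,
    add_zero] at h4
  have h5 : ∫ x in (0 : ℝ)..1, h (φ x) * deriv φ x = ∫ u in φ 0..(φ 0 + 2 * Real.pi), h u := by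
    rw [← h2, ← h1]
    rfl
  rw [h5]
  exact h4

theorem an_cast {f : ℝ → ℝ} {x : ℝ} (hf : AnalyticAt ℝ f x) :
    AnalyticAt ℝ (fun x => ((f x : ℝ) : ℂ)) x :=
  AnalyticAt.comp (g := fun y : ℝ => (y : ℂ)) (f := f) (Complex.ofRealCLM.analyticAt (f x)) hf

theorem an_exp {f : ℝ → ℂ} {x : ℝ} (hf : AnalyticAt ℝ f x) :
    AnalyticAt ℝ (fun x => Complex.exp (f x)) x :=
  AnalyticAt.comp (g := Complex.exp) (f := f)
    ((Complex.differentiable_exp.analyticAt _).restrictScalars (𝕜 := ℝ)) hf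

theorem an_hφ {h φ : ℝ → ℝ} {x : ℝ} (hh : AnalyticAt ℝ h (φ x)) (hφ : AnalyticAt ℝ φ x) :
    AnalyticAt ℝ (fun x => h (φ x)) x := AnalyticAt.comp (g := h) (f := φ) hh hφ

/-- the direction of the tangent line, `c exp (i φ)` -/
noncomputable def tanE (c : ℂ) (φ : ℝ → ℝ) (aφ : ∀ x, AnalyticAt ℝ φ x)
    (φp : ∀ x, φ (x + 1) = φ x + 2 * Real.pi) : OP :=
  ⟨fun x => c * Complex.exp ((φ x : ℂ) * I), fun x =>
    analyticAt_const.mul (an_exp ((an_cast (aφ x)).mul analyticAt_const)), fun x => by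
    have : ((φ (x + 1) : ℝ) : ℂ) * I = (φ x : ℂ) * I + 2 * Real.pi * I := by
      rw [φp x]
      push_cast
      ring
    show c * Complex.exp (((φ (x + 1) : ℝ) : ℂ) * I) = _
    rw [this, Complex.exp_periodic]⟩

theorem tanE_apply (c : ℂ) (φ : ℝ → ℝ) (aφ : ∀ x, AnalyticAt ℝ φ x)
    (φp : ∀ x, φ (x + 1) = φ x + 2 * Real.pi) (x : ℝ) :
    (tanE c φ aφ φp).1 x = c * Complex.exp ((φ x : ℂ) * I) := rfl

/-- the moment of the tangent line, `2 h(φ) exp (i φ)` -/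
noncomputable def tanM {h : ℝ → ℝ} (hh : IsTable h) (φ : ℝ → ℝ) (aφ : ∀ x, AnalyticAt ℝ φ x)
    (φp : ∀ x, φ (x + 1) = φ x + 2 * Real.pi) : OP :=
  ⟨fun x => 2 * ((h (φ x) : ℝ) : ℂ) * Complex.exp ((φ x : ℂ) * I), fun x =>
    (analyticAt_const.mul (an_cast (an_hφ (hh.1 (φ x)) (aφ x)))).mul
      (an_exp ((an_cast (aφ x)).mul analyticAt_const)), fun x => by
    have : ((φ (x + 1) : ℝ) : ℂ) * I = (φ x : ℂ) * I + 2 * Real.pi * I := by
      rw [φp x]
      push_cast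
      ring
    show 2 * ((h (φ (x + 1)) : ℝ) : ℂ) * Complex.exp (((φ (x + 1) : ℝ) : ℂ) * I) = _
    rw [this, Complex.exp_periodic, φp x, hh.2.1]⟩

theorem tanM_apply {h : ℝ → ℝ} (hh : IsTable h) (φ : ℝ → ℝ) (aφ : ∀ x, AnalyticAt ℝ φ x)
    (φp : ∀ x, φ (x + 1) = φ x + 2 * Real.pi) (x : ℝ) :
    (tanM hh φ aφ φp).1 x = 2 * ((h (φ x) : ℝ) : ℂ) * Complex.exp ((φ x : ℂ) * I) := rfl

/-- the form `p dφ` of the tangent lines as a function -/
noncomputable def omP {h : ℝ → ℝ} (hh : IsTable h) (c : ℂ) (φ : ℝ → ℝ)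
    (aφ : ∀ x, AnalyticAt ℝ φ x) (φp : ∀ x, φ (x + 1) = φ x + 2 * Real.pi) : OP :=
  ⟨fun x => -(I / c) * ((h (φ x) * deriv φ x : ℝ) : ℂ), fun x =>
    analyticAt_const.mul (an_cast ((an_hφ (hh.1 (φ x)) (aφ x)).mul (aφ x).deriv)), fun x => by
    have e1 : deriv φ (x + 1) = deriv φ x := by
      have e2 : (fun y => φ (y + 1)) = fun y => φ y + 2 * Real.pi := funext φp
      rw [← deriv_comp_add_const φ 1 x, e2, deriv_add_const]
    simp only [e1, φp x, hh.2.1 (φ x)]⟩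

theorem omP_apply {h : ℝ → ℝ} (hh : IsTable h) (c : ℂ) (φ : ℝ → ℝ)
    (aφ : ∀ x, AnalyticAt ℝ φ x) (φp : ∀ x, φ (x + 1) = φ x + 2 * Real.pi) (x : ℝ) :
    (omP hh c φ aφ φp).1 x = -(I / c) * ((h (φ x) * deriv φ x : ℝ) : ℂ) := rfl

theorem D_tanE (c : ℂ) (φ : ℝ → ℝ) (aφ : ∀ x, AnalyticAt ℝ φ x)
    (φp : ∀ x, φ (x + 1) = φ x + 2 * Real.pi) (x : ℝ) :
    (OP.D (tanE c φ aφ φp)).1 x = I * ((deriv φ x : ℝ) : ℂ) * (c * Complex.exp ((φ x : ℂ) * I)) := by
  have e1 : HasDerivAt (fun x => ((φ x : ℝ) : ℂ)) ((deriv φ x : ℝ) : ℂ) x :=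
    ((aφ x).differentiableAt.hasDerivAt).ofReal_comp
  have e2 : HasDerivAt (fun x => c * Complex.exp ((φ x : ℂ) * I))
      (c * (Complex.exp ((φ x : ℂ) * I) * (((deriv φ x : ℝ) : ℂ) * I))) x :=
    ((e1.mul_const I).cexp).const_mul c
  have e3 : (OP.D (tanE c φ aφ φp)).1 x = _ := e2.deriv
  rw [e3]
  ring

theorem omP_key {h : ℝ → ℝ} (hh : IsTable h) {c : ℂ} (hc : c ≠ 0) (φ : ℝ → ℝ)
    (aφ : ∀ x, AnalyticAt ℝ φ x) (φp : ∀ x, φ (x + 1) = φ x + 2 * Real.pi) :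
    omP hh c φ aφ φp * (2 * tanE c φ aφ φp ^ 2) =
      -(tanM hh φ aφ φp * OP.D (tanE c φ aφ φp)) := by
  refine OP.ext' fun x => ?_
  have e1 : (omP hh c φ aφ φp * (2 * tanE c φ aφ φp ^ 2)).1 x =
    (omP hh c φ aφ φp).1 x * (2 * (tanE c φ aφ φp).1 x ^ 2) := rfl
  have e2 : (-(tanM hh φ aφ φp * OP.D (tanE c φ aφ φp))).1 x =
    -((tanM hh φ aφ φp).1 x * (OP.D (tanE c φ aφ φp)).1 x) := rfl
  rw [e1, e2, D_tanE, omP_apply, tanE_apply, tanM_apply]
  push_cast
  field_simp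

theorem int_omP {h φ : ℝ → ℝ} (hh : IsTable h) {c : ℂ} (hc : c ≠ 0)
    (aφ : ∀ x, AnalyticAt ℝ φ x) (φp : ∀ x, φ (x + 1) = φ x + 2 * Real.pi) :
    ∫ x in (0 : ℝ)..1, (omP hh c φ aφ φp).1 x ≠ 0 := by
  have h3 : ∫ x in (0 : ℝ)..1, (omP hh c φ aφ φp).1 x =
      -(I / c) * ((∫ x in (0 : ℝ)..1, h (φ x) * deriv φ x : ℝ) : ℂ) := by
    rw [← intervalIntegral.integral_ofReal, ← intervalIntegral.integral_const_mul]
    rfl
  rw [h3]
  have h4 := perim hh aφ φp
  exact mul_ne_zero (neg_ne_zero.2 (div_ne_zero I_ne_zero hc)) (ofReal_ne_zero.2 h4.ne')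

/-- the embedding of the ring into an extension of its field of fractions -/
theorem two_ne {M k : Type*} [Field M] [CharZero M] [Field k] [Algebra M k] : (2 : k) ≠ 0 := by
  have h1 : (2 : k) = algebraMap M k 2 := (map_ofNat (algebraMap M k) 2).symm
  rw [h1, Ne, map_eq_zero]
  exact two_ne_zero

/-- **[P3]** the form `p dφ` of the tangent lines is not exact in any algebraic extension of the
field of fractions of the periodic real analytic functions -/
theorem hex {h φ : ℝ → ℝ} (hh : IsTable h) (aφ : ∀ x, AnalyticAt ℝ φ x)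
    (φp : ∀ x, φ (x + 1) = φ x + 2 * Real.pi) {c : ℂ} (hc : c ≠ 0)
    {M k : Type*} [Field M] [Algebra OP M] [IsFractionRing OP M] [CharZero M]
    [Field k] [Algebra M k] [Algebra.IsAlgebraic M k] {d : k → k} (hd : IsDer (RingHom.id k) d)
    {d0 : M → M} (h0 : IsDer (RingHom.id M) d0)
    (hext : ∀ x : M, d (algebraMap M k x) = algebraMap M k (d0 x))
    (hext0 : ∀ f : OP, d0 (algebraMap OP M f) = algebraMap OP M (OP.D f)) (G : k) :
    om d (algebraMap M k (algebraMap OP M (tanE c φ aφ φp)))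
      (algebraMap M k (algebraMap OP M (tanM hh φ aφ φp))) ≠ d G := by
  intro hG
  have hE0 : tanE c φ aφ φp ≠ 0 := by
    intro h1
    have h2 : (tanE c φ aφ φp).1 0 = (0 : OP).1 0 := by rw [h1]
    rw [tanE_apply] at h2
    exact mul_ne_zero hc (Complex.exp_ne_zero _) h2
  have hE1 : algebraMap M k (algebraMap OP M (tanE c φ aφ φp)) ≠ 0 := by
    rw [Ne, map_eq_zero]
    exact fun h => hE0 (IsFractionRing.injective OP M (by rw [h, map_zero]))
  have hk := congrArg (fun f => algebraMap M k (algebraMap OP M f)) (omP_key hh hc φ aφ φp)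
  simp only [map_mul, map_neg, map_pow, map_ofNat] at hk
  have h1 : d G = algebraMap M k (algebraMap OP M (omP hh c φ aφ φp)) := by
    rw [← hG, om, hext, hext0, div_eq_iff (mul_ne_zero (two_ne (M := M)) (pow_ne_zero 2 hE1))]
    exact hk.symm
  exact int_omP hh hc aφ φp (OP.int_zero_alg hd h0 hext hext0 h1)

end Vale.Agent.P097.H320
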