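import Vale.Agent.P097.H490.Strip
import Vale.Agent.P097.H531.ODE.Par
import Vale.Agent.P097.H543.ParamInt
import Vale.Agent.P097.H407.Hol
import Vale.Agent.P097.H320.Half
import Vale.Agent.P097.H531.CD.Defs

/-! # P097 / case [d], Row TC (two constants on the half discs), literal form -/

set_option linter.all false

open scoped ComplexConjugate Topology
open Filter Metric Set Complex

namespace Vale.Agent.P097.H320.TCs

open Vale.Agent.P097 Vale.Agent.P097.H490 Vale.Agent.P097.H320.Half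

/-! ### geometry of the Cayley quotient -/

theorem nsq_pos {ρ : ℝ} {w : ℂ} (hw : ‖w‖ < ρ) : 0 < normSq ((ρ : ℂ) - w) := by
  refine normSq_pos.2 fun h => ?_
  have h1 : w = ρ := (sub_eq_zero.1 h).symm
  rw [h1, norm_real, Real.norm_eq_abs] at hw
  exact absurd hw (not_lt.2 (le_abs_self ρ))

theorem cq_re_pos {ρ : ℝ} {w : ℂ} (hw : ‖w‖ < ρ) : 0 < (cq ρ w).re := by
  rw [cq_re]
  refine div_pos ?_ (nsq_pos hw)
  nlinarith [norm_nonneg w]

theorem cq_diff' {ρ : ℝ} : DifferentiableOn ℂ (cq ρ) (ball (0 : ℂ) ρ) := by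
  intro w hw
  rw [mem_ball_zero_iff] at hw
  have hne : (ρ : ℂ) - w ≠ 0 := normSq_pos.1 (nsq_pos hw)
  unfold cq
  exact ((differentiableAt_id.const_add _).fun_div (differentiableAt_id.const_sub _)
    hne).differentiableWithinAt

theorem cq_arg_nonneg {ρ : ℝ} {w : ℂ} (hw : ‖w‖ < ρ) (hi : 0 ≤ w.im) : 0 ≤ arg (cq ρ w) := by
  rw [arg_nonneg_iff, cq_im]
  have hρ : 0 < ρ := (norm_nonneg w).trans_lt hw
  exact div_nonneg (by positivity) (normSq_nonneg _)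

/-- the number `tan (0.205 π) ≥ 3 / 4` -/
theorem tan_num : 3 / 4 ≤ Real.tan (205 / 1000 * Real.pi) := by
  have hπ := Real.pi_pos
  have hπ1 : Real.pi < 3.1416 := Real.pi_lt_d4
  set x : ℝ := 45 / 1000 * Real.pi with hx
  have hx0 : 0 < x := by positivity
  have hx1 : x < 0.141372 := by
    rw [hx]
    linarith
  have e : 205 / 1000 * Real.pi = Real.pi / 4 - x := by
    rw [hx]
    ring
  have hs : Real.sin x ≤ x := Real.sin_le hx0.le
  have hc : 1 - x ^ 2 / 2 ≤ Real.cos x := Real.one_sub_sq_div_two_le_cos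
  have hk : 7 * Real.sin x ≤ Real.cos x := by nlinarith
  have hs0 : 0 < Real.sin x := Real.sin_pos_of_pos_of_lt_pi hx0 (by linarith)
  have h2 : 0 < √(2 : ℝ) := by positivity
  have hcos : 0 < Real.cos (Real.pi / 4 - x) := by
    rw [Real.cos_sub, Real.cos_pi_div_four, Real.sin_pi_div_four]
    have : 0 < Real.cos x := by linarith
    positivity
  rw [e, Real.tan_eq_sin_div_cos, le_div_iff₀ hcos, Real.sin_sub, Real.cos_sub,
    Real.cos_pi_div_four, Real.sin_pi_div_four]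
  nlinarith

theorem arg_cq_third {ρ : ℝ} {w : ℂ} (hw : ‖w‖ ≤ ρ / 3) (hi : 0 < w.im) :
    arg (cq ρ w) ≤ 205 / 1000 * Real.pi := by
  have hn : w.im ≤ ‖w‖ := (le_abs_self _).trans (abs_im_le_norm w)
  have hρ : 0 < ρ := by linarith
  have hwρ : ‖w‖ < ρ := by linarith
  have h1 := cq_im_pos hρ hi
  have hre := cq_re_pos hwρ
  have h2 : (cq ρ w).im ≤ 3 / 4 * (cq ρ w).re := by
    rw [cq_im, cq_re, ← mul_div_assoc]
    have h7 := nsq_pos hwρ
    refine div_le_div_of_nonneg_right ?_ h7.le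
    have h8 : ‖w‖ ^ 2 ≤ (ρ / 3) ^ 2 := pow_le_pow_left₀ (norm_nonneg _) hw 2
    have h9 : ρ * w.im ≤ ρ * (ρ / 3) := by
      apply mul_le_mul_of_nonneg_left _ hρ.le
      linarith
    nlinarith
  have h3 : |arg (cq ρ w)| < Real.pi / 2 := abs_arg_lt_pi_div_two_iff.2 (Or.inl hre)
  have h4 : 0 ≤ arg (cq ρ w) := arg_nonneg_iff.2 h1.le
  by_contra hcon
  push Not at hcon
  rw [abs_of_nonneg h4] at h3
  have h5 : Real.tan (205 / 1000 * Real.pi) < Real.tan (arg (cq ρ w)) :=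
    Real.tan_lt_tan_of_lt_of_lt_pi_div_two (by linarith [Real.pi_pos]) h3 hcon
  rw [tan_arg, lt_div_iff₀ hre] at h5
  nlinarith [mul_le_mul_of_nonneg_right tan_num hre.le]

theorem arg_ge {z : ℂ} {κ : ℝ} (hre : 0 < z.re) (him : 0 < z.im) (h : z.re ≤ κ * z.im) :
    Real.pi / 2 * (1 - κ) ≤ arg z := by
  have hπ := Real.pi_pos
  have h0 : 0 ≤ arg z := arg_nonneg_iff.2 him.le
  have h1 : |arg z| < Real.pi / 2 := abs_arg_lt_pi_div_two_iff.2 (Or.inl hre)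
  rw [abs_of_nonneg h0] at h1
  have hz : z ≠ 0 := fun h => by rw [h] at hre; simp at hre
  have hzn : 0 < ‖z‖ := norm_pos_iff.2 hz
  have h2 : Real.cos (arg z) = z.re / ‖z‖ := cos_arg hz
  have h3 := Real.mul_le_sin (x := Real.pi / 2 - arg z) (by linarith) (by linarith)
  rw [Real.sin_pi_div_two_sub, h2] at h3
  have h4 : z.im ≤ ‖z‖ := (le_abs_self _).trans (abs_im_le_norm z)
  have hκ : 0 ≤ κ := by
    by_contra hc
    push Not at hc
    nlinarith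
  have h5 : z.re / ‖z‖ ≤ κ := by
    rw [div_le_iff₀ hzn]
    nlinarith
  have h6 : 2 / Real.pi * (Real.pi / 2 - arg z) ≤ κ := h3.trans h5
  have h7 : Real.pi / 2 - arg z ≤ Real.pi / 2 * κ := by
    have h8 : Real.pi / 2 * (2 / Real.pi * (Real.pi / 2 - arg z)) ≤ Real.pi / 2 * κ := by gcongr
    have h9 : Real.pi / 2 * (2 / Real.pi * (Real.pi / 2 - arg z)) = Real.pi / 2 - arg z := by
      field_simp
    rwa [h9] at h8
  linarith

/-- a point of the circle far from `± R` -/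
theorem far_point {R δ : ℝ} (hR : 0 < R) (hδ : 0 < δ) {w : ℂ} (hw : ‖w‖ = R) (hi : 0 < w.im)
    (h1 : δ ≤ ‖w - R‖) (h2 : δ ≤ ‖w + R‖) : δ ^ 2 ≤ 2 * R * w.im := by
  have e : ‖w - R‖ * ‖w + R‖ = 2 * R * w.im := by
    rw [← norm_mul]
    have e1 : (w - R) * (w + R) = w * ((2 * w.im : ℝ) * I) := by
      have e2 : (R : ℂ) ^ 2 = w * conj w := by
        rw [mul_conj, normSq_eq_norm_sq, hw]
        push_cast
        ring
      have e3 : w - conj w = ((2 * w.im : ℝ) : ℂ) * I := by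
        rw [sub_conj]
      rw [← e3]
      linear_combination -e2
    rw [e1, norm_mul, norm_mul, norm_real, norm_I, mul_one, hw, Real.norm_eq_abs,
      abs_of_pos (by positivity)]
    ring
  rw [← e, sq]
  exact mul_le_mul h1 h2 hδ.le (norm_nonneg _)

/-! ### Fourier coefficients in `t` -/

noncomputable def cf (f : ℂ × ℂ → ℂ) (N : ℤ) (w : ℂ) : ℂ := fc (fun t => f (t, w)) N

theorem cf_diff {f : ℂ × ℂ → ℂ} {a b : ℝ} (ha : a < 0) (hb : 0 < b) {W : Set ℂ} (hW : IsOpen W)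
    (hf : DifferentiableOn ℂ f (Str a b ×ˢ W)) (N : ℤ) : DifferentiableOn ℂ (cf f N) W := by
  intro w hw
  apply DifferentiableAt.differentiableWithinAt
  have hO : IsOpen {q : ℂ × ℂ | (q.2, q.1) ∈ Str a b ×ˢ W} :=
    ((isOpen_str a b).prod hW).preimage (by fun_prop)
  have hG : DifferentiableOn ℂ (fun q : ℂ × ℂ => f (q.2, q.1)) {q | (q.2, q.1) ∈ Str a b ×ˢ W} :=
    hf.comp (f := fun q : ℂ × ℂ => (q.2, q.1)) (by fun_prop) fun q hq => hq
  have key := H543.differentiableAt_integral_param hO hG (γ := fun x : ℝ => (x : ℂ))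
    (ψ := fun x : ℝ => Complex.exp (-(2 * Real.pi * Complex.I * N * x))) (by fun_prop)
    (by fun_prop) (α := 0) (β := 1) (x₀ := w) (by
      intro s _
      refine ⟨⟨?_, ?_⟩, hw⟩
      · show a < (s : ℂ).im
        rw [ofReal_im]
        exact ha
      · show (s : ℂ).im < b
        rw [ofReal_im]
        exact hb)
  have e : (fun x => ∫ s in (0 : ℝ)..1, Complex.exp (-(2 * Real.pi * Complex.I * N * s)) *
      f ((s : ℂ), x)) = cf f N := by
    funext x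
    unfold cf fc
    refine intervalIntegral.integral_congr fun s _ => ?_
    ring
  rw [← e]
  exact key

/-- bound on a closed strip by periodicity -/
theorem bdd_per {f : ℂ × ℂ → ℂ} {a b : ℝ} {W K : Set ℂ} (hf : ContinuousOn f (Str a b ×ˢ W))
    (hper : ∀ t ∈ Str a b, ∀ w ∈ W, f (t + 1, w) = f (t, w)) (hK : IsCompact K) (hKW : K ⊆ W)
    {y₀ y₁ : ℝ} (h0 : a < y₀) (h1 : y₁ < b) :
    ∃ M, ∀ t : ℂ, y₀ ≤ t.im → t.im ≤ y₁ → ∀ w ∈ K, ‖f (t, w)‖ ≤ M := by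
  have hC : IsCompact ((Icc (0:ℝ) 1 ×ℂ Icc y₀ y₁) ×ˢ K) :=
    (isCompact_Icc.reProdIm isCompact_Icc).prod hK
  have hsub : ((Icc (0:ℝ) 1 ×ℂ Icc y₀ y₁) ×ˢ K) ⊆ Str a b ×ˢ W := by
    rintro ⟨t, w⟩ ⟨ht, hw⟩
    rw [Complex.mem_reProdIm] at ht
    exact ⟨⟨by linarith [ht.2.1], by linarith [ht.2.2]⟩, hKW hw⟩
  obtain ⟨M, hM⟩ := hC.exists_bound_of_continuousOn (hf.mono hsub)
  refine ⟨M, fun t ht0 ht1 w hw => ?_⟩
  have hstr : ∀ s : ℂ, s.im = t.im → s ∈ Str a b := by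
    intro s hs
    exact ⟨by rw [hs]; linarith, by rw [hs]; linarith⟩
  have key : ∀ (n : ℕ) (s : ℂ), s.im = t.im → f (s + n, w) = f (s, w) := by
    intro n
    induction n with
    | zero => intro s _; simp
    | succ n ih =>
      intro s hs
      have h1 : (s + ((n + 1 : ℕ) : ℂ)) = (s + n) + 1 := by push_cast; ring
      rw [h1, hper _ (hstr _ (by simpa using hs)) w (hKW hw), ih s hs]
  have key2 : ∀ (n : ℤ), f (t + n, w) = f (t, w) := by
    intro n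
    obtain ⟨m, rfl | rfl⟩ := n.eq_nat_or_neg
    · have := key m t rfl
      simpa using this
    · have := key m (t + ((-(m:ℤ) : ℤ) : ℂ)) (by simp)
      rw [← this]
      congr 2
      push_cast
      ring
  rw [← key2 (-⌊t.re⌋)]
  refine hM _ ⟨?_, hw⟩
  rw [Complex.mem_reProdIm]
  have h1 : (t + ((-⌊t.re⌋ : ℤ) : ℂ)).re = Int.fract t.re := by
    simp [Int.fract, sub_eq_add_neg]
  have h2 : (t + ((-⌊t.re⌋ : ℤ) : ℂ)).im = t.im := by simp
  show (t + ((-⌊t.re⌋ : ℤ) : ℂ)).re ∈ Icc 0 1 ∧ (t + ((-⌊t.re⌋ : ℤ) : ℂ)).im ∈ Icc y₀ y₁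
  rw [h1, h2]
  exact ⟨⟨Int.fract_nonneg _, (Int.fract_lt_one _).le⟩, ht0, ht1⟩

theorem slice_diff {f : ℂ × ℂ → ℂ} {a b : ℝ} {W : Set ℂ} (hf : DifferentiableOn ℂ f (Str a b ×ˢ W))
    {w : ℂ} (hw : w ∈ W) : DifferentiableOn ℂ (fun t => f (t, w)) (Str a b) :=
  hf.comp (f := fun t : ℂ => (t, w)) (by fun_prop) fun t ht => ⟨ht, hw⟩

/-- bound of the coefficients on a compact set of labels -/
theorem cf_bound {f : ℂ × ℂ → ℂ} {a b : ℝ} (ha : a < 0) (hb : 0 < b) {W K : Set ℂ}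
    (hf : DifferentiableOn ℂ f (Str a b ×ˢ W))
    (hper : ∀ t ∈ Str a b, ∀ w ∈ W, f (t + 1, w) = f (t, w)) (hK : IsCompact K) (hKW : K ⊆ W)
    {y : ℝ} (hya : a < y) (hyb : y < b) :
    ∃ M, 0 ≤ M ∧ ∀ w ∈ K, ∀ N : ℤ, ‖cf f N w‖ ≤ M * Real.exp (2 * Real.pi * N * y) := by
  set a' : ℝ := (a + min y 0) / 2 with ha'
  set b' : ℝ := (b + max y 0) / 2 with hb'
  have h1 : a < min y 0 := lt_min hya ha
  have h2 : max y 0 < b := max_lt hyb hb
  have h3 : a < a' := by rw [ha']; linarith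
  have h4 : a' < min y 0 := by rw [ha']; linarith
  have h5 : b' < b := by rw [hb']; linarith
  have h6 : max y 0 < b' := by rw [hb']; linarith
  obtain ⟨M, hM⟩ := bdd_per hf.continuousOn hper hK hKW h3 h5
  have hsub : Str a' b' ⊆ Str a b := fun t ht => ⟨by linarith [ht.1], by linarith [ht.2]⟩
  refine ⟨max M 0, le_max_right _ _, fun w hw N => ?_⟩
  exact fc_bound (f := fun t => f (t, w)) (a := a') (b := b') (M := max M 0)
    (lt_of_lt_of_le h4 (min_le_right _ _)) (lt_of_le_of_lt (le_max_right _ _) h6)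
    ((slice_diff hf (hKW hw)).mono hsub) (fun t ht => hper t (hsub ht) w (hKW hw))
    (fun t ht => (hM t ht.1.le ht.2.le w hw).trans (le_max_left _ _)) N
    (lt_of_lt_of_le h4 (min_le_left _ _)) (lt_of_le_of_lt (le_max_left _ _) h6)

/-! ### the half disc -/

/-- upper half disc estimate for the coefficients -/
theorem half_bound {h : ℂ → ℂ} {R R' R₁ κ δ μ M₀ M₁ x₀ x₁ : ℝ} {V : Set ℂ} {n : ℕ} (hR : 0 < R)
    (hRR : R < R') (hh : DifferentiableOn ℂ h (ball (0 : ℂ) R')) (hR1 : R < R₁)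
    (hδ : 0 < δ) (hκ : 0 ≤ κ) (hκ1 : κ < 1) (hRκ : R₁ ^ 2 - R ^ 2 ≤ κ * δ ^ 2) (hμ : 0 ≤ μ)
    (hVr : ∀ u : ℝ, |u| ≤ R → (u : ℂ) ∈ V) (hV1 : ball (R : ℂ) δ ⊆ V) (hV2 : ball (-R : ℂ) δ ⊆ V)
    (hM0 : 0 ≤ M₀) (hM1 : 0 ≤ M₁)
    (hb0 : ∀ w : ℂ, ‖w‖ ≤ R → ‖h w‖ ≤ M₀ * Real.exp (-(n * x₀)))
    (hb1 : ∀ w ∈ V, ‖w‖ ≤ R → ‖h w‖ ≤ M₁ * Real.exp (-(n * x₁)))
    (hμx : x₁ - x₀ ≤ μ * (Real.pi / 2 * (1 - κ))) {w : ℂ} (hw : ‖w‖ ≤ R / 3) (hi : 0 < w.im) :
    ‖h w‖ ≤ (M₀ + M₁) * Real.exp (-(n * (x₁ - μ * (205 / 1000 * Real.pi)))) := by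
  have hπ := Real.pi_pos
  have hn0 : (0 : ℝ) ≤ n := Nat.cast_nonneg n
  set F : ℂ → ℂ := fun z => h z * Complex.exp (-((n * μ : ℝ) : ℂ) * (-I * log (cq R₁ z))) with hF
  have hFn : ∀ z, ‖F z‖ = ‖h z‖ * Real.exp (-(n * μ * arg (cq R₁ z))) := by
    intro z
    have h1 : (-I * log (cq R₁ z)).re = arg (cq R₁ z) := by
      rw [neg_mul, neg_re, I_mul_re, neg_neg, log_im]
    simp only [hF]
    rw [norm_mul, norm_exp, neg_mul, neg_re, re_ofReal_mul, h1]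
  have hFd : DifferentiableOn ℂ F (ball (0 : ℂ) R' ∩ ball (0 : ℂ) R₁) := by
    have h1 : DifferentiableOn ℂ (fun z => log (cq R₁ z)) (ball (0 : ℂ) R₁) :=
      cq_diff'.clog fun z hz => Or.inl (cq_re_pos (mem_ball_zero_iff.1 hz))
    exact (hh.mono inter_subset_left).mul
      (((h1.const_mul _).const_mul _).cexp.mono inter_subset_right)
  have hcl : closure (HD R) ⊆ {z : ℂ | ‖z‖ ≤ R ∧ 0 ≤ z.im} := by
    refine closure_minimal (fun z hz => ⟨hz.1.le, hz.2.le⟩) ?_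
    exact (isClosed_le continuous_norm continuous_const).inter
      (isClosed_le continuous_const continuous_im)
  have hFc : DiffContOnCl ℂ F (HD R) := by
    refine DifferentiableOn.diffContOnCl (hFd.mono fun z hz => ?_)
    have := (hcl hz).1
    exact ⟨mem_ball_zero_iff.2 (by linarith), mem_ball_zero_iff.2 (by linarith)⟩
  have hbd : ∀ z ∈ frontier (HD R), ‖F z‖ ≤ (M₀ + M₁) * Real.exp (-(n * x₁)) := by
    intro z hz
    rw [(isOpen_HD R).frontier_eq] at hz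
    obtain ⟨hz1, hz2⟩ := hz
    obtain ⟨hzn, hzi⟩ := hcl hz1
    have harg := cq_arg_nonneg (lt_of_le_of_lt hzn hR1) hzi
    rw [hFn]
    by_cases hzV : z ∈ V
    · have h1 : Real.exp (-(n * μ * arg (cq R₁ z))) ≤ 1 := by
        rw [Real.exp_le_one_iff]
        have : 0 ≤ n * μ * arg (cq R₁ z) := by positivity
        linarith
      have hp := Real.exp_pos (-(n * x₁))
      calc ‖h z‖ * Real.exp (-(n * μ * arg (cq R₁ z))) ≤ ‖h z‖ * 1 := by gcongr
        _ ≤ M₁ * Real.exp (-(n * x₁)) := by rw [mul_one]; exact hb1 z hzV hzn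
        _ ≤ (M₀ + M₁) * Real.exp (-(n * x₁)) := by gcongr; linarith
    · -- on the circle, away from `± R`
      have hzi' : 0 < z.im := by
        rcases hzi.lt_or_eq with h | h
        · exact h
        · exfalso
          apply hzV
          have e : z = ((z.re : ℝ) : ℂ) := by
            apply Complex.ext
            · rw [ofReal_re]
            · rw [ofReal_im]; exact h.symm
          rw [e]
          exact hVr _ ((abs_re_le_norm z).trans hzn)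
      have hznR : ‖z‖ = R := by
        by_contra h
        exact hz2 ⟨lt_of_le_of_ne hzn h, hzi'⟩
      have h1 : δ ≤ ‖z - R‖ := by
        by_contra h
        push Not at h
        exact hzV (hV1 (by rw [mem_ball, dist_eq_norm]; exact h))
      have h2 : δ ≤ ‖z + R‖ := by
        by_contra h
        push Not at h
        exact hzV (hV2 (by rw [mem_ball, dist_eq_norm, sub_neg_eq_add]; exact h))
      have h3 := far_point hR hδ hznR hzi' h1 h2
      have hzR1 : ‖z‖ < R₁ := by linarith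
      have hre := cq_re_pos hzR1
      have him := cq_im_pos (ρ := R₁) (by linarith) hzi'
      have h4 : (cq R₁ z).re ≤ κ * (cq R₁ z).im := by
        rw [cq_im, cq_re, ← mul_div_assoc]
        refine div_le_div_of_nonneg_right ?_ (nsq_pos hzR1).le
        rw [hznR]
        have h5 : κ * δ ^ 2 ≤ κ * (2 * R * z.im) := by gcongr
        have h6 : κ * (2 * R * z.im) ≤ κ * (2 * R₁ * z.im) := by gcongr
        linarith
      have h5 := arg_ge hre him h4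
      have h6 : x₁ - x₀ ≤ μ * arg (cq R₁ z) := hμx.trans (by gcongr)
      have hp := Real.exp_pos (-(n * x₁))
      calc ‖h z‖ * Real.exp (-(n * μ * arg (cq R₁ z)))
          ≤ M₀ * Real.exp (-(n * x₀)) * Real.exp (-(n * μ * arg (cq R₁ z))) := by
            gcongr
            exact hb0 z hzn
        _ = M₀ * Real.exp (-(n * x₀) + -(n * μ * arg (cq R₁ z))) := by
            rw [mul_assoc, ← Real.exp_add]
        _ ≤ M₀ * Real.exp (-(n * x₁)) := by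
            gcongr
            nlinarith
        _ ≤ (M₀ + M₁) * Real.exp (-(n * x₁)) := by gcongr; linarith
  have hbound := norm_le_of_forall_mem_frontier_norm_le
    (isBounded_ball.subset (s := HD R) (t := ball (0 : ℂ) R) fun z hz =>
      mem_ball_zero_iff.2 hz.1) hFc hbd (z := w) (subset_closure ⟨by linarith, hi⟩)
  rw [hFn] at hbound
  have harg := arg_cq_third (ρ := R₁) (w := w) (by linarith) hi
  have hexp : 0 < Real.exp (-(n * μ * arg (cq R₁ w))) := Real.exp_pos _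
  have h7 : ‖h w‖ ≤ (M₀ + M₁) * Real.exp (-(n * x₁)) * Real.exp (n * μ * arg (cq R₁ w)) := by
    have e : ‖h w‖ = ‖h w‖ * Real.exp (-(n * μ * arg (cq R₁ w))) *
        Real.exp (n * μ * arg (cq R₁ w)) := by
      rw [mul_assoc, ← Real.exp_add, neg_add_cancel, Real.exp_zero, mul_one]
    rw [e]
    gcongr
  refine h7.trans ?_
  rw [mul_assoc, ← Real.exp_add]
  have h8 : 0 ≤ M₀ + M₁ := by linarith
  gcongr
  have h9 : n * μ * arg (cq R₁ w) ≤ n * μ * (205 / 1000 * Real.pi) := by gcongr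
  nlinarith

/-! ### the real labels -/

theorem str_convex (a b : ℝ) : Convex ℝ (Str a b) :=
  (convex_halfSpace_im_gt a).inter (convex_halfSpace_im_lt b)

theorem real_bound {f : ℂ × ℂ → ℂ} {a b₀ b₁ R' : ℝ} (ha : 0 < a) (hb₀ : 0 < b₀) (hb : b₀ ≤ b₁)
    (hper : ∀ t w : ℂ, -a < t.im → t.im < b₀ → ‖w‖ < R' → f (t + 1, w) = f (t, w))
    {u ε : ℝ} (hε : 0 < ε) (hu : |u| < R') {G : ℂ × ℂ → ℂ}
    (hG : AnalyticOnNhd ℂ G (Str (-a) b₁ ×ˢ ball (u : ℂ) ε))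
    (hGf : ∀ t w : ℂ, -a < t.im → t.im < b₀ → w ∈ ball (u : ℂ) ε → ‖w‖ < R' → G (t, w) = f (t, w))
    {y : ℝ} (hya : -a < y) (hyb : y < b₁) :
    ∃ ε' > 0, ∃ M, 0 ≤ M ∧ ∀ w ∈ ball (u : ℂ) ε', ∀ N : ℤ,
      ‖cf f N w‖ ≤ M * Real.exp (2 * Real.pi * N * y) := by
  set ε' : ℝ := min ε (R' - |u|) / 2 with hε'
  have hm : 0 < min ε (R' - |u|) := lt_min hε (by linarith)
  have hε0 : 0 < ε' := by positivity
  have h1 : ε' < ε := by
    have := min_le_left ε (R' - |u|)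
    rw [hε']; linarith
  have h2 : ε' < R' - |u| := by
    have := min_le_right ε (R' - |u|)
    rw [hε']; linarith
  have hn : ∀ w ∈ closedBall (u : ℂ) ε', ‖w‖ < R' := by
    intro w hw
    rw [mem_closedBall, dist_eq_norm] at hw
    have h3 := norm_add_le (w - u) (u : ℂ)
    rw [sub_add_cancel, norm_real, Real.norm_eq_abs] at h3
    linarith
  have hnε : closedBall (u : ℂ) ε' ⊆ ball (u : ℂ) ε := closedBall_subset_ball h1
  -- the open set of labels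
  set W : Set ℂ := ball (u : ℂ) ε ∩ ball (0 : ℂ) R' with hW
  have hKW : closedBall (u : ℂ) ε' ⊆ W := fun w hw => ⟨hnε hw, mem_ball_zero_iff.2 (hn w hw)⟩
  have hGW : AnalyticOnNhd ℂ G (Str (-a) b₁ ×ˢ W) :=
    hG.mono (prod_mono_right inter_subset_left)
  have hperG : ∀ t ∈ Str (-a) b₁, ∀ w ∈ W, G (t + 1, w) = G (t, w) := by
    intro t ht w hw
    have hwR : ‖w‖ < R' := mem_ball_zero_iff.1 hw.2
    have hs : Differentiable ℂ fun s : ℂ => s + 1 := by fun_prop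
    have e1 : DifferentiableOn ℂ (fun s : ℂ => G (s, w)) (Str (-a) b₁) :=
      slice_diff hGW.differentiableOn hw
    have e2 : DifferentiableOn ℂ (fun s : ℂ => G (s + 1, w)) (Str (-a) b₁) :=
      e1.comp (f := fun s : ℂ => s + 1) hs.differentiableOn fun s hs' => by
        refine ⟨?_, ?_⟩
        · show -a < (s + 1).im
          rw [add_im, one_im, add_zero]
          exact hs'.1
        · show (s + 1).im < b₁
          rw [add_im, one_im, add_zero]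
          exact hs'.2
    have h0 : (0 : ℂ) ∈ Str (-a) b₁ := by
      refine ⟨?_, ?_⟩
      · show -a < (0 : ℂ).im
        rw [zero_im]; linarith
      · show (0 : ℂ).im < b₁
        rw [zero_im]; linarith
    have hev : (fun s : ℂ => G (s + 1, w)) =ᶠ[𝓝 0] fun s : ℂ => G (s, w) := by
      have hmem : Str (-a) b₀ ∈ 𝓝 (0 : ℂ) := (isOpen_str (-a) b₀).mem_nhds (by
        refine ⟨?_, ?_⟩
        · show -a < (0 : ℂ).im
          rw [zero_im]; linarith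
        · show (0 : ℂ).im < b₀
          rw [zero_im]; exact hb₀)
      filter_upwards [hmem] with s hs'
      have h3 : (s + 1).im = s.im := by rw [add_im, one_im, add_zero]
      rw [hGf (s + 1) w (by rw [h3]; exact hs'.1) (by rw [h3]; exact hs'.2) hw.1 hwR,
        hGf s w hs'.1 hs'.2 hw.1 hwR, hper s w hs'.1 hs'.2 hwR]
    exact (e2.analyticOnNhd (isOpen_str _ _)).eqOn_of_preconnected_of_eventuallyEq
      (e1.analyticOnNhd (isOpen_str _ _)) (str_convex _ _).isPreconnected h0 hev ht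
  obtain ⟨M, hM0, hM⟩ := cf_bound (a := -a) (b := b₁) (by linarith) (by linarith)
    hGW.differentiableOn hperG (isCompact_closedBall (u : ℂ) ε') hKW hya hyb
  refine ⟨ε', hε0, M, hM0, fun w hw N => ?_⟩
  have hwc := ball_subset_closedBall hw
  have e : cf f N w = cf G N w := by
    unfold cf fc
    refine intervalIntegral.integral_congr fun x _ => ?_
    simp only
    rw [hGf (x : ℂ) w (by rw [ofReal_im]; linarith) (by rw [ofReal_im]; exact hb₀) (hnε hwc)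
      (hn w hwc)]
  rw [e]
  exact hM w hwc N

theorem cover {f : ℂ × ℂ → ℂ} {R y : ℝ} (hR : 0 < R)
    (h : ∀ u : ℝ, |u| ≤ R → ∃ ε' > 0, ∃ M, 0 ≤ M ∧ ∀ w ∈ ball (u : ℂ) ε', ∀ N : ℤ,
      ‖cf f N w‖ ≤ M * Real.exp (2 * Real.pi * N * y)) :
    ∃ V : Set ℂ, IsOpen V ∧ (∀ u : ℝ, |u| ≤ R → (u : ℂ) ∈ V) ∧ ∃ M, 0 ≤ M ∧ ∀ w ∈ V, ∀ N : ℤ,
      ‖cf f N w‖ ≤ M * Real.exp (2 * Real.pi * N * y) := by
  choose! ε hε M hM0 hM using h
  have hc : IsCompact (Icc (-R) R) := isCompact_Icc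
  obtain ⟨T, hT⟩ := hc.elim_finite_subcover (fun u : Icc (-R) R => ball (u : ℝ) (ε u))
    (fun _ => isOpen_ball) (by
      intro u hu
      exact mem_iUnion.2 ⟨⟨u, hu⟩, mem_ball_self (hε u (abs_le.2 hu))⟩)
  refine ⟨⋃ u ∈ T, ball ((u : ℝ) : ℂ) (ε u), isOpen_biUnion fun _ _ => isOpen_ball, ?_,
    ∑ u ∈ T, M u, Finset.sum_nonneg fun u _ => hM0 u (abs_le.2 u.2), ?_⟩
  · intro u hu
    obtain ⟨v, hv⟩ := mem_iUnion.1 (hT (abs_le.1 hu))
    obtain ⟨hvT, hv⟩ := mem_iUnion.1 hv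
    refine mem_biUnion hvT ?_
    rw [mem_ball, dist_eq_norm, ← ofReal_sub, norm_real, ← dist_eq_norm]
    exact hv
  · intro w hw N
    obtain ⟨v, hv⟩ := mem_iUnion.1 hw
    obtain ⟨hvT, hv⟩ := mem_iUnion.1 hv
    refine (hM v (abs_le.2 v.2) w hv N).trans ?_
    gcongr
    exact Finset.single_le_sum (f := fun u : Icc (-R) R => M u) (fun u _ => hM0 u (abs_le.2 u.2)) hvT

/-- the parameters -/
structure Pm (b₀ b₁ b₂ η κ : ℝ) : Prop where
  η0 : 0 < η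
  ηb : η ≤ b₀ / 2
  κ0 : 0 < κ
  κ1 : κ ≤ 1 / 2
  fin : 2 * Real.pi * (b₂ + η) ≤
    2 * Real.pi * (b₁ - η) - 4 * (b₁ - b₀) / (1 - κ) * (205 / 1000 * Real.pi)

theorem exists_Pm {b₀ b₁ b₂ : ℝ} (hb₀ : 0 < b₀) (hb : b₀ ≤ b₁)
    (hb2 : b₂ < 59 / 100 * b₁ + 41 / 100 * b₀) : ∃ η κ, Pm b₀ b₁ b₂ η κ := by
  have hπ := Real.pi_pos
  set Δ : ℝ := b₁ - b₀ with hΔ
  have hΔ0 : 0 ≤ Δ := by rw [hΔ]; linarith
  set s : ℝ := b₁ - 41 / 100 * Δ - b₂ with hs
  have hs0 : 0 < s := by rw [hs, hΔ]; linarith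
  set η : ℝ := min (s / 8) (b₀ / 2) with hη
  have hη0 : 0 < η := lt_min (by positivity) (by positivity)
  have hη1 : η ≤ s / 8 := min_le_left _ _
  have hη2 : η ≤ b₀ / 2 := min_le_right _ _
  set κ : ℝ := min (1 / 2) (s / (4 * (Δ + 1))) with hκ
  have hκ0 : 0 < κ := lt_min (by norm_num) (by positivity)
  have hκ1 : κ ≤ 1 / 2 := min_le_left _ _
  have hκ2 : Δ * κ ≤ s / 4 := by
    have h1 : κ ≤ s / (4 * (Δ + 1)) := min_le_right _ _
    have h2 : Δ * κ ≤ Δ * (s / (4 * (Δ + 1))) := by gcongr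
    have h3 : Δ * (s / (4 * (Δ + 1))) ≤ s / 4 := by
      rw [← mul_div_assoc, div_le_div_iff₀ (by positivity) (by norm_num)]
      nlinarith
    linarith
  have h1κ : 0 < 1 - κ := by linarith
  refine ⟨η, κ, hη0, hη2, hκ0, hκ1, ?_⟩
  have h1 : 4 * Δ / (1 - κ) ≤ 4 * Δ * (1 + 2 * κ) := by
    rw [div_le_iff₀ h1κ]
    have h2 : 1 ≤ (1 + 2 * κ) * (1 - κ) := by nlinarith
    nlinarith
  have h3 : b₂ + η ≤ b₁ - η - 205 / 2000 * (4 * Δ / (1 - κ)) := by
    have h4 : b₂ = b₁ - 41 / 100 * Δ - s := by rw [hs]; ring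
    nlinarith
  nlinarith

/-- the set of labels near the real segment -/
structure Vs (V : Set ℂ) (R δ : ℝ) : Prop where
  r : ∀ u : ℝ, |u| ≤ R → (u : ℂ) ∈ V
  p : ball (R : ℂ) δ ⊆ V
  m : ball (-R : ℂ) δ ⊆ V

theorem Vs.neg {V : Set ℂ} {R δ : ℝ} (h : Vs V R δ) : Vs {z | -z ∈ V} R δ := by
  refine ⟨fun u hu => ?_, fun z hz => ?_, fun z hz => ?_⟩
  · show -(u : ℂ) ∈ V
    rw [← ofReal_neg]
    exact h.r _ (by rwa [abs_neg])
  · show -z ∈ V
    apply h.m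
    rw [mem_ball, dist_eq_norm] at hz ⊢
    rwa [show -z - -(R : ℂ) = -(z - R) by ring, norm_neg]
  · show -z ∈ V
    apply h.p
    rw [mem_ball, dist_eq_norm] at hz ⊢
    rwa [show -z - (R : ℂ) = -(z - -R) by ring, norm_neg]

theorem up_bound {h : ℂ → ℂ} {R R' δ b₀ b₁ b₂ η κ M₀ M₁ : ℝ} {V : Set ℂ} {n : ℕ}
    (P : Pm b₀ b₁ b₂ η κ) (hb : b₀ ≤ b₁) (hR : 0 < R) (hRR : R < R')
    (hh : DifferentiableOn ℂ h (ball (0 : ℂ) R')) (hδ : 0 < δ) (hV : Vs V R δ)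
    (hM0 : 0 ≤ M₀) (hM1 : 0 ≤ M₁)
    (hb0 : ∀ w : ℂ, ‖w‖ ≤ R → ‖h w‖ ≤ M₀ * Real.exp (-(n * (2 * Real.pi * (b₀ - η)))))
    (hb1 : ∀ w ∈ V, ‖h w‖ ≤ M₁ * Real.exp (-(n * (2 * Real.pi * (b₁ - η)))))
    {w : ℂ} (hw : ‖w‖ ≤ R / 3) (hi : 0 < w.im) :
    ‖h w‖ ≤ (M₀ + M₁) * Real.exp (-(n * (2 * Real.pi * (b₂ + η)))) := by
  have hπ := Real.pi_pos
  have hκ0 := P.κ0
  have hκ1 := P.κ1
  set R₁ : ℝ := √(R ^ 2 + κ * δ ^ 2) with hR₁
  have hR1sq : R₁ ^ 2 = R ^ 2 + κ * δ ^ 2 := Real.sq_sqrt (by positivity)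
  have hR1 : R < R₁ := by
    rw [hR₁]
    refine Real.lt_sqrt_of_sq_lt ?_
    have : 0 < κ * δ ^ 2 := by positivity
    linarith
  have h1κ : 0 < 1 - κ := by linarith
  have hΔ0 : 0 ≤ b₁ - b₀ := by linarith
  have hμ0 : 0 ≤ 4 * (b₁ - b₀) / (1 - κ) := by positivity
  have hμx : 2 * Real.pi * (b₁ - η) - 2 * Real.pi * (b₀ - η) ≤
      4 * (b₁ - b₀) / (1 - κ) * (Real.pi / 2 * (1 - κ)) := by
    have : 4 * (b₁ - b₀) / (1 - κ) * (Real.pi / 2 * (1 - κ)) = 2 * Real.pi * (b₁ - b₀) := by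
      field_simp
      ring
    rw [this]
    linarith
  have h1 := half_bound hR hRR hh hR1 hδ hκ0.le (by linarith) (by rw [hR1sq]; linarith) hμ0
    hV.r hV.p hV.m hM0 hM1 hb0 (fun w hw _ => hb1 w hw) hμx hw hi
  refine h1.trans ?_
  have hn : (0 : ℝ) ≤ n := Nat.cast_nonneg n
  have h2 : Real.exp (-(n * (2 * Real.pi * (b₁ - η) -
      4 * (b₁ - b₀) / (1 - κ) * (205 / 1000 * Real.pi)))) ≤
      Real.exp (-(n * (2 * Real.pi * (b₂ + η)))) := by
    apply Real.exp_le_exp.2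
    have := mul_le_mul_of_nonneg_left P.fin hn
    linarith
  exact mul_le_mul_of_nonneg_left h2 (by linarith)

theorem all_bound {h : ℂ → ℂ} {R R' δ b₀ b₁ b₂ η κ M₀ M₁ : ℝ} {V : Set ℂ} {n : ℕ}
    (P : Pm b₀ b₁ b₂ η κ) (hb : b₀ ≤ b₁) (hR : 0 < R) (hRR : R < R')
    (hh : DifferentiableOn ℂ h (ball (0 : ℂ) R')) (hδ : 0 < δ) (hV : Vs V R δ)
    (hM0 : 0 ≤ M₀) (hM1 : 0 ≤ M₁)
    (hb0 : ∀ w : ℂ, ‖w‖ ≤ R → ‖h w‖ ≤ M₀ * Real.exp (-(n * (2 * Real.pi * (b₀ - η)))))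
    (hb1 : ∀ w ∈ V, ‖h w‖ ≤ M₁ * Real.exp (-(n * (2 * Real.pi * (b₁ - η)))))
    {w : ℂ} (hw : ‖w‖ ≤ R / 3) :
    ‖h w‖ ≤ (M₀ + M₁) * Real.exp (-(n * (2 * Real.pi * (b₂ + η)))) := by
  have hπ := Real.pi_pos
  have hκ0 := P.κ0
  have hκ1 := P.κ1
  have h1κ : 0 < 1 - κ := by linarith
  have hΔ0 : 0 ≤ b₁ - b₀ := by linarith
  rcases lt_trichotomy w.im 0 with hi | hi | hi
  · have h1 := up_bound (h := fun z => h (-z)) (V := {z | -z ∈ V}) P hb hR hRR
      (hh.comp (f := fun z : ℂ => -z) (by fun_prop) fun z hz => by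
        rw [mem_ball_zero_iff] at hz ⊢
        rwa [norm_neg]) hδ hV.neg hM0 hM1 (fun z hz => hb0 (-z) (by rwa [norm_neg]))
      (fun z hz => hb1 (-z) hz) (w := -w) (by rwa [norm_neg]) (by rw [neg_im]; linarith)
    simpa only [neg_neg] using h1
  · have hwr : w = ((w.re : ℝ) : ℂ) := by
      apply Complex.ext
      · rw [ofReal_re]
      · rw [ofReal_im]; exact hi
    have hwV : w ∈ V := by
      rw [hwr]
      exact hV.r _ ((abs_re_le_norm w).trans (by linarith))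
    refine (hb1 w hwV).trans ?_
    have hn : (0 : ℝ) ≤ n := Nat.cast_nonneg n
    have h2 : Real.exp (-(n * (2 * Real.pi * (b₁ - η)))) ≤
        Real.exp (-(n * (2 * Real.pi * (b₂ + η)))) := by
      apply Real.exp_le_exp.2
      have h3 : 2 * Real.pi * (b₂ + η) ≤ 2 * Real.pi * (b₁ - η) := by
        have h4 : 0 ≤ 4 * (b₁ - b₀) / (1 - κ) * (205 / 1000 * Real.pi) := by positivity
        have := P.fin
        linarith
      have := mul_le_mul_of_nonneg_left h3 hn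
      linarith
    exact mul_le_mul (by linarith) h2 (Real.exp_pos _).le (by linarith)
  · exact up_bound P hb hR hRR hh hδ hV hM0 hM1 hb0 hb1 hw hi

/-- decay of the negative coefficients on the disc of one third of the radius -/
theorem third_bound {f : ℂ × ℂ → ℂ} {a b₀ b₁ b₂ R R' : ℝ} (ha : 0 < a) (hb₀ : 0 < b₀)
    (hb : b₀ ≤ b₁) (hR : 0 < R) (hRR : R < R') (hb2 : b₂ < 59 / 100 * b₁ + 41 / 100 * b₀)
    (hf : AnalyticOnNhd ℂ f (Str (-a) b₀ ×ˢ ball (0 : ℂ) R'))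
    (hper : ∀ t w : ℂ, -a < t.im → t.im < b₀ → ‖w‖ < R' → f (t + 1, w) = f (t, w))
    (hG : ∀ u : ℝ, |u| ≤ R → ∃ ε > 0, ∃ G : ℂ × ℂ → ℂ,
      AnalyticOnNhd ℂ G (Str (-a) b₁ ×ˢ ball (u : ℂ) ε) ∧
      ∀ t w : ℂ, -a < t.im → t.im < b₀ → w ∈ ball (u : ℂ) ε → ‖w‖ < R' → G (t, w) = f (t, w)) :
    ∃ y₂ M : ℝ, b₂ < y₂ ∧ 0 ≤ M ∧ ∀ w : ℂ, ‖w‖ ≤ R / 3 → ∀ n : ℕ,
      ‖cf f (-(n : ℤ)) w‖ ≤ M * Real.exp (-(n * (2 * Real.pi * y₂))) := by
  obtain ⟨η, κ, P⟩ := exists_Pm hb₀ hb hb2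
  have hη0 := P.η0
  have hηb := P.ηb
  obtain ⟨M₀, hM00, hM0⟩ := cf_bound (f := f) (a := -a) (b := b₀) (W := ball (0 : ℂ) R')
    (K := closedBall (0 : ℂ) R) (by linarith) hb₀ hf.differentiableOn
    (fun t ht w hw => hper t w ht.1 ht.2 (mem_ball_zero_iff.1 hw)) (isCompact_closedBall _ _)
    (closedBall_subset_ball hRR) (y := b₀ - η) (by linarith) (by linarith)
  obtain ⟨V, hVo, hVr, M₁, hM10, hM1⟩ := cover (f := f) (y := b₁ - η) hR fun u hu => by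
    obtain ⟨ε, hε, G, hGa, hGf⟩ := hG u hu
    exact real_bound ha hb₀ hb hper hε (hu.trans_lt hRR) hGa hGf (by linarith) (by linarith)
  obtain ⟨δ₁, hδ₁, hV1⟩ := Metric.isOpen_iff.1 hVo (R : ℂ) (hVr R (by rw [abs_of_pos hR]))
  obtain ⟨δ₂, hδ₂, hV2⟩ := Metric.isOpen_iff.1 hVo (-R : ℂ) (by
    have := hVr (-R) (by rw [abs_neg, abs_of_pos hR])
    rwa [ofReal_neg] at this)
  have hx : ∀ (n : ℕ) (y : ℝ), Real.exp (2 * Real.pi * ((-(n : ℤ) : ℤ) : ℝ) * y) =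
      Real.exp (-(n * (2 * Real.pi * y))) := by
    intro n y
    congr 1
    push_cast
    ring
  have hVs : Vs V R (min δ₁ δ₂) := ⟨hVr, (ball_subset_ball (min_le_left _ _)).trans hV1,
    (ball_subset_ball (min_le_right _ _)).trans hV2⟩
  refine ⟨b₂ + η, M₀ + M₁, by linarith, by linarith, fun w hw n => ?_⟩
  refine all_bound P hb hR hRR (cf_diff (a := -a) (b := b₀) (by linarith) hb₀ isOpen_ball
    hf.differentiableOn _) (lt_min hδ₁ hδ₂) hVs hM00 hM10 (fun z hz => ?_) (fun z hz => ?_) hw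
  · rw [← hx]
    exact hM0 z (mem_closedBall_zero_iff.2 hz) (-(n : ℤ))
  · rw [← hx]
    exact hM1 z hz (-(n : ℤ))

end Vale.Agent.P097.H320.TCs
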